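import Mathlib

/-!
# Power series with bounded coefficients (for G-S1)

`Bd w r Q`: all coefficients of `Q` have `w`-absolute value at most `r`.
The Frobenius congruence `frob_coeff`.
-/

open PowerSeries Finset

namespace P025H133

variable {K : Type*} [Field K] {w : AbsoluteValue K ℝ}

theorem na_sum (hna : IsNonarchimedean w) {ι : Type*} (s : Finset ι) (f : ι → K) {r : ℝ}
    (hr : 0 ≤ r) (h : ∀ i ∈ s, w (f i) ≤ r) : w (∑ i ∈ s, f i) ≤ r := by
  classical
  induction s using Finset.induction_on with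
  | empty => simpa using hr
  | insert a s ha ih =>
    rw [Finset.sum_insert ha]
    exact (hna _ _).trans (max_le (h a (Finset.mem_insert_self a s))
      (ih fun i hi => h i (Finset.mem_insert_of_mem hi)))

theorem na_sub (hna : IsNonarchimedean w) (x y : K) : w (x - y) ≤ max (w x) (w y) := by
  have := hna x (-y)
  rwa [AbsoluteValue.map_neg, ← sub_eq_add_neg] at this

theorem na_natCast (hna : IsNonarchimedean w) (n : ℕ) : w (n : K) ≤ 1 := by
  induction n with
  | zero => simp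
  | succ n ih =>
    push_cast
    exact (hna _ _).trans (max_le ih (by rw [map_one]))

/-- bounded coefficients -/
def Bd (w : AbsoluteValue K ℝ) (r : ℝ) (Q : K⟦X⟧) : Prop := ∀ n, w (coeff n Q) ≤ r

theorem Bd.mono {r s : ℝ} {Q : K⟦X⟧} (h : Bd w r Q) (hrs : r ≤ s) : Bd w s Q :=
  fun n => (h n).trans hrs

theorem Bd.nonneg {r : ℝ} {Q : K⟦X⟧} (h : Bd w r Q) : 0 ≤ r := (w.nonneg _).trans (h 0)

theorem Bd.add (hna : IsNonarchimedean w) {r : ℝ} {P Q : K⟦X⟧} (hP : Bd w r P) (hQ : Bd w r Q) :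
    Bd w r (P + Q) := fun n => by
  rw [map_add]
  exact (hna _ _).trans (max_le (hP n) (hQ n))

theorem Bd.mul (hna : IsNonarchimedean w) {r s : ℝ} {P Q : K⟦X⟧} (hP : Bd w r P)
    (hQ : Bd w s Q) : Bd w (r * s) (P * Q) := fun n => by
  rw [coeff_mul]
  refine na_sum hna _ _ (mul_nonneg hP.nonneg hQ.nonneg) fun i _ => ?_
  rw [map_mul]
  exact mul_le_mul (hP _) (hQ _) (w.nonneg _) hP.nonneg

theorem Bd.pow (hna : IsNonarchimedean w) {P : K⟦X⟧} (hP : Bd w 1 P) (n : ℕ) : Bd w 1 (P ^ n) := by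
  induction n with
  | zero =>
    intro n
    rw [pow_zero, coeff_one]
    split_ifs <;> simp
  | succ n ih => rw [pow_succ]; simpa using ih.mul hna hP

theorem Bd.sum (hna : IsNonarchimedean w) {ι : Type*} (s : Finset ι) {f : ι → K⟦X⟧} {r : ℝ}
    (hr : 0 ≤ r) (h : ∀ i ∈ s, Bd w r (f i)) : Bd w r (∑ i ∈ s, f i) := fun n => by
  rw [map_sum]
  exact na_sum hna _ _ hr fun i hi => h i hi n

theorem Bd.C {a : K} {r : ℝ} (hr : 0 ≤ r) (h : w a ≤ r) : Bd w r (C a) := fun n => by
  rw [coeff_C]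
  split_ifs
  · exact h
  · simpa using hr

theorem Bd.natCast (hna : IsNonarchimedean w) (n : ℕ) : Bd w 1 ((n : ℕ) : K⟦X⟧) := by
  have : ((n : ℕ) : K⟦X⟧) = PowerSeries.C (n : K) := (map_natCast _ n).symm
  rw [this]
  exact Bd.C zero_le_one (na_natCast hna n)

theorem Bd.natCast' (n : ℕ) : Bd w (w (n : K)) ((n : ℕ) : K⟦X⟧) := by
  have : ((n : ℕ) : K⟦X⟧) = PowerSeries.C (n : K) := (map_natCast _ n).symm
  rw [this]
  exact Bd.C (w.nonneg _) le_rfl

theorem Bd.monomial {a : K} {r : ℝ} (m : ℕ) (hr : 0 ≤ r) (h : w a ≤ r) :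
    Bd w r (PowerSeries.monomial m a) := fun n => by
  rw [coeff_monomial]
  split_ifs
  · exact h
  · simpa using hr

/-- Frobenius congruence for truncated sums -/
theorem frob_sum (hna : IsNonarchimedean w) {p : ℕ} (hp : p.Prime) (v : ℕ → K) {δ : ℝ}
    (hδ : 0 ≤ δ) (hδ1 : δ ≤ 1) (h0 : w (v 0) ≤ 1) (hv : ∀ n, 1 ≤ n → w (v n) ≤ δ) (m : ℕ) :
    Bd w (w (p : K) * δ) ((∑ i ∈ range (m + 1), monomial i (v i)) ^ p -
      ∑ i ∈ range (m + 1), monomial (p * i) (v i ^ p)) := by
  induction m with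
  | zero =>
    rw [sum_range_one, sum_range_one, monomial_pow, mul_zero, sub_self]
    intro n
    rw [map_zero, map_zero]
    exact mul_nonneg (w.nonneg _) hδ
  | succ m ih =>
    rw [sum_range_succ _ (m + 1), sum_range_succ _ (m + 1), add_pow_prime_eq hp]
    set W := ∑ i ∈ range (m + 1), monomial (R := K) i (v i) with hW
    have hm : Bd w δ (monomial (R := K) (m + 1) (v (m + 1))) :=
      Bd.monomial _ hδ (hv _ (Nat.le_add_left 1 m))
    have hm1 := hm.mono hδ1
    have hW1 : Bd w 1 W := by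
      refine Bd.sum hna _ zero_le_one fun i _ => Bd.monomial _ zero_le_one ?_
      rcases Nat.eq_zero_or_pos i with h | h
      · rw [h]; exact h0
      · exact (hv i h).trans hδ1
    have hS : Bd w 1 (∑ k ∈ Ioo 0 p, W ^ (k - 1) *
        monomial (R := K) (m + 1) (v (m + 1)) ^ (p - k - 1) * ((p.choose k / p : ℕ) : K⟦X⟧)) := by
      refine Bd.sum hna _ zero_le_one fun k _ => ?_
      have := ((hW1.pow hna (k - 1)).mul hna (hm1.pow hna (p - k - 1))).mul hna
        (Bd.natCast hna (p.choose k / p))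
      simpa using this
    have h3 : Bd w (w (p : K) * δ) ((p : K⟦X⟧) * W * monomial (R := K) (m + 1) (v (m + 1)) *
        ∑ k ∈ Ioo 0 p, W ^ (k - 1) *
        monomial (R := K) (m + 1) (v (m + 1)) ^ (p - k - 1) * ((p.choose k / p : ℕ) : K⟦X⟧)) := by
      have := (((Bd.natCast' (w := w) p).mul hna hW1).mul hna hm).mul hna hS
      simpa using this
    rw [monomial_pow]
    have h4 := ih.add hna h3
    convert h4 using 1
    ring

/-- **Frobenius congruence** for the coefficients of `V ^ p` -/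
theorem frob_coeff (hna : IsNonarchimedean w) {p : ℕ} (hp : p.Prime) (V : K⟦X⟧) {δ : ℝ}
    (hδ : 0 ≤ δ) (hδ1 : δ ≤ 1) (h0 : w (coeff 0 V) ≤ 1)
    (hv : ∀ n, 1 ≤ n → w (coeff n V) ≤ δ) (n : ℕ) :
    w (coeff (p * n) (V ^ p) - coeff n V ^ p) ≤ w (p : K) * δ := by
  have h1 : coeff (p * n) (V ^ p) =
      coeff (p * n) ((∑ i ∈ range (p * n + 1), monomial i (coeff i V)) ^ p) := by
    have h2 : (∑ i ∈ range (p * n + 1), monomial (R := K) i (coeff i V)) =
        (trunc (p * n + 1) V : K⟦X⟧) := by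
      ext k
      rw [map_sum, Polynomial.coeff_coe, coeff_trunc]
      simp only [coeff_monomial]
      rw [Finset.sum_ite_eq (range (p * n + 1)) k]
      simp only [mem_range]
    rw [h2, ← coeff_coe_trunc_of_lt (Nat.lt_succ_self (p * n)),
      ← coeff_coe_trunc_of_lt (f := (trunc (p * n + 1) V : K⟦X⟧) ^ p) (Nat.lt_succ_self (p * n)),
      trunc_trunc_pow]
  have h2 := frob_sum hna hp (fun i => coeff i V) hδ hδ1 h0 hv (p * n) (p * n)
  rw [map_sub, ← h1, map_sum] at h2
  have h3 : ∑ i ∈ range (p * n + 1), coeff (p * n) (monomial (R := K) (p * i) (coeff i V ^ p)) =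
      coeff n V ^ p := by
    rw [Finset.sum_eq_single n]
    · rw [coeff_monomial_same]
    · intro i _ hi
      rw [coeff_monomial, if_neg]
      intro h
      exact hi (Nat.eq_of_mul_eq_mul_left hp.pos h).symm
    · intro h
      exact absurd (mem_range.mpr (Nat.lt_succ_of_le (Nat.le_mul_of_pos_left n hp.pos))) h
  rwa [h3] at h2

end P025H133
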