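import Vale.Agent.P025.R2.H133.Gen

/-!
# `d/dT` is bounded for every `w` over the Gauss norm of `T` (for G-S1)
-/

open Finset Polynomial P025H373 P025H746 IntermediateField

set_option linter.unusedSectionVars false

namespace P025H133

variable {C K : Type*} [NontriviallyNormedField C] [IsUltrametricDist C] [Field K] [Algebra C K]
  {T : K}

theorem gp_derivative_le (P : C[X]) : gp (derivative P) ≤ gp P := by
  rw [gp_le_iff]
  intro i
  rw [coeff_derivative, norm_mul]
  have h1 : ‖((i : C) + 1)‖ ≤ 1 := by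
    have := IsUltrametricDist.norm_natCast_le_one C (i + 1)
    simpa using this
  exact (mul_le_of_le_one_right (norm_nonneg _) h1).trans (norm_coeff_le P (i + 1))

/-- bounded for the maximum of all `v` over `T` -/
theorem bounded_max [FiniteDimensional C⟮T⟯ K] {n : ℕ} {z : Fin n → K} (hz : ONB C T z)
    (D : Derivation C K K) (hD : D T = 1) :
    ∃ A : ℝ, ∀ (x : K) (r : ℝ), 0 ≤ r → (∀ v : NV C K, v.OverG T → v x ≤ r) →
      ∀ v : NV C K, v.OverG T → v (D x) ≤ A * r := by
  classical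
  obtain ⟨A, hA1, hA⟩ : ∃ A : ℝ, 1 ≤ A ∧ ∀ v : NV C K, v.OverG T → ∀ k, v (D (z k)) ≤ A := by
    refine ⟨1 + ∑ v : {v : NV C K // v.OverG T}, ∑ k, v.1 (D (z k)), ?_, fun v hv k => ?_⟩
    · have : 0 ≤ ∑ v : {v : NV C K // v.OverG T}, ∑ k, v.1 (D (z k)) :=
        Finset.sum_nonneg fun v _ => Finset.sum_nonneg fun k _ => v.1.av.nonneg _
      linarith
    · have h1 := Finset.single_le_sum (f := fun k => v (D (z k)))
        (fun k _ => v.av.nonneg _) (Finset.mem_univ k)
      have h2 := Finset.single_le_sum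
        (f := fun v : {v : NV C K // v.OverG T} => ∑ k, v.1 (D (z k)))
        (fun v _ => Finset.sum_nonneg fun k _ => v.1.av.nonneg _)
        (Finset.mem_univ (⟨v, hv⟩ : {v : NV C K // v.OverG T}))
      dsimp only at h1 h2
      linarith
  refine ⟨A, fun x r hr hx v hv => ?_⟩
  obtain ⟨Q, P, hQ, hQP⟩ := hz.span x
  have hgQ : 0 < gp Q := lt_of_le_of_ne (gp_nonneg Q) (fun h => hQ (gp_eq_zero.mp h.symm))
  have hP : ∀ k, gp (P k) ≤ gp Q * r := hz.on P (gp Q * r) fun v hv => by
    rw [← hQP, map_mul, hv Q]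
    exact mul_le_mul_of_nonneg_left (hx v hv) hgQ.le
  have hDa : ∀ P : C[X], D (aeval T P) = aeval T (derivative P) := by
    intro P
    rw [Derivation.map_aeval, hD, smul_eq_mul, mul_one]
  have h1 : aeval T Q * D x = ∑ k, (aeval T (derivative (P k)) * z k + aeval T (P k) * D (z k)) -
      aeval T (derivative Q) * x := by
    have h2 := congrArg D hQP
    rw [Derivation.leibniz, map_sum, hDa] at h2
    simp only [Derivation.leibniz, hDa, smul_eq_mul] at h2
    rw [eq_sub_iff_add_eq, mul_comm _ x, h2]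
    exact Finset.sum_congr rfl fun k _ => by ring
  have hr' : 0 ≤ gp Q * r := mul_nonneg hgQ.le hr
  have hle : gp Q * r ≤ A * (gp Q * r) := le_mul_of_one_le_left hr' hA1
  have hb : 0 ≤ A * (gp Q * r) := hr'.trans hle
  have h3 : v (aeval T Q * D x) ≤ A * (gp Q * r) := by
    rw [h1]
    refine NV.sub_le (NV.sum_le hb fun k _ => NV.add_le ?_ ?_) ?_
    · rw [map_mul, hv]
      refine le_trans ?_ hle
      exact (mul_le_of_le_one_right (gp_nonneg _) (hz.le v hv k)).trans
        ((gp_derivative_le _).trans (hP k))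
    · rw [map_mul, hv, mul_comm A]
      exact mul_le_mul (hP k) (hA v hv k) (v.av.nonneg _) hr'
    · rw [map_mul, hv]
      refine le_trans ?_ hle
      exact mul_le_mul (gp_derivative_le _) (hx v hv) (v.av.nonneg _) hgQ.le
  rw [map_mul, hv] at h3
  have h4 : gp Q * v (D x) ≤ gp Q * (A * r) := by
    calc gp Q * v (D x) ≤ A * (gp Q * r) := h3
      _ = gp Q * (A * r) := by ring
  exact le_of_mul_le_mul_left h4 hgQ

/-- **`d/dT` is bounded for `w`** -/
theorem bounded_D [FiniteDimensional C⟮T⟯ K] {n : ℕ} {z : Fin n → K} (hz : ONB C T z)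
    {w : NV C K} (hw : w.OverG T) (D : Derivation C K K) (hD : D T = 1) :
    ∃ M : ℝ, ∀ x, w (D x) ≤ M * w x := by
  classical
  obtain ⟨A, hA⟩ := bounded_max hz D hD
  obtain ⟨e, -, he, hej⟩ := P025H458.exists_idem (ι := {v : NV C K // v.OverG T})
    (fun v => v.1.av) (fun v => v.1.na) (fun v => v.1.ext')
    (fun v v' h => Subtype.ext (NV.ext h)) ⟨w, hw⟩
  dsimp only at he
  refine ⟨max A (w (D e)), fun x => ?_⟩
  by_cases hx : x = 0
  · rw [hx, map_zero, map_zero, mul_zero]
  have hwx : 0 < w x := w.av.pos hx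
  obtain ⟨m, hm⟩ : ∃ m : ℕ, ∀ v : {v : NV C K // v.OverG T}, v ≠ ⟨w, hw⟩ →
      v.1 e ^ m * v.1 x ≤ w x := by
    have h1 : ∀ v : {v : NV C K // v.OverG T}, ∀ᶠ m : ℕ in Filter.atTop, v ≠ ⟨w, hw⟩ →
        v.1 e ^ m * v.1 x ≤ w x := by
      intro v
      by_cases hv : v = ⟨w, hw⟩
      · exact Filter.Eventually.of_forall fun m h => absurd hv h
      · have h2 : Filter.Tendsto (fun m : ℕ => v.1 e ^ m * v.1 x) Filter.atTop (nhds 0) := by
          simpa using (tendsto_pow_atTop_nhds_zero_of_lt_one (v.1.av.nonneg _)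
            (hej v hv)).mul_const (v.1 x)
        filter_upwards [h2.eventually (gt_mem_nhds hwx)] with m hm _
        exact hm.le
    exact (Filter.eventually_all.mpr h1).exists
  have h1 : ∀ v : NV C K, v.OverG T → v (e ^ m * x) ≤ w x := by
    intro v hv
    by_cases h : (⟨v, hv⟩ : {v : NV C K // v.OverG T}) = ⟨w, hw⟩
    · obtain rfl : v = w := congrArg Subtype.val h
      rw [map_mul, map_pow, he, one_pow, one_mul]
    · rw [map_mul, map_pow]
      exact hm ⟨v, hv⟩ h
  have h2 := hA (e ^ m * x) (w x) hwx.le h1 w hw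
  have h3 : e ^ m * D x = D (e ^ m * x) - x * (m * e ^ (m - 1) * D e) := by
    rw [Derivation.leibniz, Derivation.leibniz_pow]
    simp only [smul_eq_mul, nsmul_eq_mul]
    ring
  have h4 : w (D x) = w (e ^ m * D x) := by rw [map_mul, map_pow, he, one_pow, one_mul]
  rw [h4, h3]
  refine NV.sub_le (h2.trans (mul_le_mul_of_nonneg_right (le_max_left _ _) hwx.le)) ?_
  have h5 : w ((m : K) * e ^ (m - 1)) ≤ 1 := by
    rw [map_mul, map_pow, he, one_pow, mul_one]
    exact na_natCast w.na m
  rw [map_mul, map_mul, mul_comm (w x)]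
  exact mul_le_mul_of_nonneg_right
    ((mul_le_of_le_one_left (w.av.nonneg _) h5).trans (le_max_right _ _)) hwx.le

end P025H133
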