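import Vale.Agent.P025.R2.H133.Core

/-!
# All divided powers of `d/dt` are bounded by one (for G-S1)

If `t` is an approximate `p`-basis of the valuation ring (every `x` is `∑ t^j c_j^p + p r`) and the
derivation `D` with `D t = 1` is bounded, then `Contr w D`.
-/

open PowerSeries Finset

set_option linter.unusedSectionVars false

namespace P025H133

variable {K : Type*} [Field K] [CharZero K] {w : AbsoluteValue K ℝ} {D : Derivation ℤ K K}

theorem coeff_pow_p_le (hna : IsNonarchimedean w) {p : ℕ} (hp : p.Prime) (P : K⟦X⟧) {n : ℕ}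
    (h : ∀ k < n, w (coeff k P) ≤ 1) :
    w (coeff n (P ^ p)) ≤ max 1 (w (p : K) * w (coeff n P)) ∨ n = 0 := by
  rcases Nat.eq_zero_or_pos n with h0 | h0
  · right; exact h0
  left
  set a := coeff n P with ha
  set A : K⟦X⟧ := ∑ k ∈ range n, PowerSeries.monomial k (coeff k P) with hA
  set Y : K⟦X⟧ := X ^ n * C a with hY
  have h1 : coeff n (P ^ p) = coeff n ((A + Y) ^ p) := by
    have h2 : A + Y = (trunc (n + 1) P : K⟦X⟧) := by
      have h3 : Y = PowerSeries.monomial n a := by
        ext k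
        rw [hY, coeff_X_pow_mul', coeff_monomial]
        by_cases hk : k = n
        · rw [if_pos hk, if_pos hk.ge, hk, Nat.sub_self, coeff_C, if_pos rfl]
        · rw [if_neg hk]
          split_ifs with h4
          · rw [coeff_C, if_neg (by omega)]
          · rfl
      rw [h3, hA, ← sum_range_succ (fun k => PowerSeries.monomial k (coeff k P))]
      ext k
      rw [map_sum, Polynomial.coeff_coe, coeff_trunc]
      simp only [coeff_monomial]
      rw [Finset.sum_ite_eq (range (n + 1)) k]
      simp only [mem_range]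
    rw [h2, ← coeff_coe_trunc_of_lt (Nat.lt_succ_self n),
      ← coeff_coe_trunc_of_lt (f := (trunc (n + 1) P : K⟦X⟧) ^ p) (Nat.lt_succ_self n),
      trunc_trunc_pow]
  have hA1 : Bd w 1 A := Bd.sum hna _ zero_le_one fun k hk =>
    Bd.monomial _ zero_le_one (h k (mem_range.mp hk))
  rw [h1, add_pow_prime_eq hp, (coeff (R := K) n).map_add, (coeff (R := K) n).map_add]
  set S : K⟦X⟧ := ∑ k ∈ Ioo 0 p, A ^ (k - 1) * Y ^ (p - k - 1) * ((p.choose k / p : ℕ) : K⟦X⟧)
    with hS
  have hY0 : constantCoeff Y = 0 := by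
    rw [hY, map_mul, map_pow, constantCoeff_X, zero_pow h0.ne', zero_mul]
  have hS0 : w (constantCoeff S) ≤ 1 := by
    rw [hS, map_sum]
    refine na_sum hna _ _ zero_le_one fun k _ => ?_
    rw [RingHom.map_mul, RingHom.map_mul, RingHom.map_pow, RingHom.map_pow, map_natCast, hY0,
      map_mul, map_mul]
    refine mul_le_one₀ (mul_le_one₀ ?_ (w.nonneg _) ?_) (w.nonneg _) (na_natCast hna _)
    · rw [map_pow]
      refine pow_le_one₀ (w.nonneg _) ?_
      have := hA1 0
      rwa [coeff_zero_eq_constantCoeff_apply] at this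
    · rw [map_pow, map_zero]
      exact pow_le_one₀ le_rfl zero_le_one
  have hYp : coeff n (Y ^ p) = 0 := by
    rw [hY, mul_pow, ← pow_mul, coeff_X_pow_mul', if_neg]
    have := hp.one_lt
    push Not
    exact lt_mul_of_one_lt_right h0 this
  have h4 : coeff n ((p : K⟦X⟧) * A * Y * S) = p * a * (constantCoeff A * constantCoeff S) := by
    have h5 : (p : K⟦X⟧) * A * Y * S = X ^ n * (C ((p : K) * a) * (A * S)) := by
      rw [hY, map_mul, map_natCast]
      ring
    rw [h5, coeff_X_pow_mul', if_pos le_rfl, Nat.sub_self, coeff_C_mul,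
      coeff_zero_eq_constantCoeff_apply, map_mul]
  have hA0 : w (constantCoeff A) ≤ 1 := by
    have := hA1 0
    rwa [coeff_zero_eq_constantCoeff_apply] at this
  refine (hna _ _).trans (max_le ((hna _ _).trans (max_le ?_ ?_)) ?_)
  · exact le_max_of_le_left (hA1.pow hna p n)
  · rw [hYp, map_zero]
    exact le_max_of_le_left zero_le_one
  · rw [h4, map_mul, map_mul, map_mul]
    refine le_max_of_le_right (mul_le_of_le_one_right (mul_nonneg (w.nonneg _) (w.nonneg _)) ?_)
    exact mul_le_one₀ hA0 (w.nonneg _) hS0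

theorem coeff_mul_le' (hna : IsNonarchimedean w) {P Q : K⟦X⟧} {R : ℝ} {n : ℕ}
    (hP : Bd w 1 P) (hQ : ∀ k ≤ n, w (coeff k Q) ≤ R) (hR : 0 ≤ R) :
    w (coeff n (P * Q)) ≤ R := by
  rw [coeff_mul]
  refine na_sum hna _ _ hR fun i hi => ?_
  rw [map_mul]
  have h1 : i.2 ≤ n := by
    have := mem_antidiagonal.mp hi
    omega
  calc w (coeff i.1 P) * w (coeff i.2 Q) ≤ 1 * R :=
        mul_le_mul (hP _) (hQ _ h1) (w.nonneg _) zero_le_one
    _ = R := one_mul R

/-- Taylor expansion of the parameter -/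
theorem Tv_param {t : K} (hDt : D t = 1) : Tv D 0 t = C t + X := by
  ext n
  rw [coeff_Tv, nab_zero, map_add, coeff_C, coeff_X]
  rcases n with _ | _ | n
  · simp
  · simp [hDt]
  · rw [Function.iterate_succ_apply, Function.iterate_succ_apply, hDt, if_neg (by omega),
      if_neg (by omega)]
    have h1 : D 1 = 0 := by simp
    rw [h1]
    have : ∀ m, (⇑D)^[m] (0 : K) = 0 := by
      intro m
      induction m with
      | zero => rfl
      | succ m ih => rw [Function.iterate_succ_apply', ih, map_zero]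
    rw [this]
    simp

theorem Tv_zero_mul (x y : K) : Tv D 0 (x * y) = Tv D 0 x * Tv D 0 y := by
  rw [Tv_mul, add_zero]

theorem Tv_zero_pow (x : K) (n : ℕ) : Tv D 0 (x ^ n) = Tv D 0 x ^ n := by
  rw [Tv_pow, mul_zero]

theorem Tv_zero_const {x : K} (h : D x = 0) : Tv D 0 x = C x :=
  Tv_const D (by rw [nab_zero]; exact h)

theorem Tv_zero_sum {ι : Type*} (s : Finset ι) (f : ι → K) :
    Tv D 0 (∑ i ∈ s, f i) = ∑ i ∈ s, Tv D 0 (f i) := by
  classical
  induction s using Finset.induction_on with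
  | empty =>
    rw [sum_empty, sum_empty, Tv_zero_const (map_zero D), map_zero]
  | insert a s ha ih => rw [sum_insert ha, sum_insert ha, Tv_add, ih]

/-- **divided powers of `D` are bounded by one** -/
theorem contr_of (hna : IsNonarchimedean w) {p : ℕ} (hp : p.Prime) (hwp : w (p : K) < 1)
    {t : K} (ht : w t ≤ 1) (hDt : D t = 1)
    (hsc : ∀ x : K, x ≠ 0 → ∃ c : K, c ≠ 0 ∧ D c = 0 ∧ w c = w x)
    (hM : ∃ M : ℝ, ∀ x, w (D x) ≤ M * w x)
    (hS : ∀ x, w x ≤ 1 → ∃ (c : ℕ → K) (r : K), (∀ j, w (c j) ≤ 1) ∧ w r ≤ 1 ∧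
      x = ∑ j ∈ range p, t ^ j * c j ^ p + p * r) : Contr w D := by
  -- reduction to `w x ≤ 1`
  have key : ∀ n, ∀ x, w x ≤ 1 → w (coeff n (Tv D 0 x)) ≤ 1 := by
    intro n
    induction n using Nat.strong_induction_on with
    | _ n ih =>
    rcases Nat.eq_zero_or_pos n with h0 | h0
    · intro x hx
      rw [h0, coeff_zero_eq_constantCoeff_apply, constantCoeff_Tv]
      exact hx
    -- the operator norm of `D ^ n / n!`
    obtain ⟨M, hM⟩ := hM
    have hM0 : 0 ≤ M := by
      have := hM 1
      rw [w.map_one, mul_one] at this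
      exact (w.nonneg _).trans this
    have hiter : ∀ k x, w ((⇑D)^[k] x) ≤ M ^ k * w x := by
      intro k x
      induction k with
      | zero => simp
      | succ k ihk =>
        rw [Function.iterate_succ_apply']
        refine (hM _).trans ?_
        rw [pow_succ, mul_comm (M ^ k) M, mul_assoc]
        exact mul_le_mul_of_nonneg_left ihk hM0
    set B : ℝ := sSup {b | ∃ x, w x ≤ 1 ∧ b = w (coeff n (Tv D 0 x))} with hB
    have hbdd : BddAbove {b | ∃ x, w x ≤ 1 ∧ b = w (coeff n (Tv D 0 x))} := by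
      refine ⟨M ^ n / w (n.factorial : K), ?_⟩
      rintro b ⟨x, hx, rfl⟩
      rw [coeff_Tv, nab_zero, map_div₀]
      refine div_le_div_of_nonneg_right ?_ (w.nonneg _)
      exact (hiter n x).trans (mul_le_of_le_one_right (pow_nonneg hM0 n) hx)
    have hle : ∀ x, w x ≤ 1 → w (coeff n (Tv D 0 x)) ≤ B := fun x hx =>
      le_csSup hbdd ⟨x, hx, rfl⟩
    have hstep : ∀ x, w x ≤ 1 → w (coeff n (Tv D 0 x)) ≤ max 1 (w (p : K) * B) := by
      intro x hx
      obtain ⟨c, r, hc, hr, hxe⟩ := hS x hx
      have hR0 : (0 : ℝ) ≤ max 1 (w (p : K) * B) := le_max_of_le_left zero_le_one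
      rw [hxe, Tv_add, map_add, Tv_zero_sum, map_sum]
      refine (hna _ _).trans (max_le (na_sum hna _ _ hR0 fun j _ => ?_) ?_)
      · rw [Tv_zero_mul, Tv_zero_pow, Tv_zero_pow, Tv_param hDt]
        refine coeff_mul_le' hna (Bd.pow hna ?_ j) ?_ hR0
        · refine Bd.add hna (Bd.C zero_le_one ht) ?_
          intro k
          rw [coeff_X]
          split_ifs <;> simp
        · intro k hk
          have hck : ∀ i < k, w (coeff i (Tv D 0 (c j))) ≤ 1 := fun i hi =>
            ih i (lt_of_lt_of_le hi hk) (c j) (hc j)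
          rcases coeff_pow_p_le hna hp (Tv D 0 (c j)) hck with h1 | h1
          · refine h1.trans (max_le (le_max_left _ _) ?_)
            rcases hk.eq_or_lt with h2 | h2
            · rw [h2]
              exact le_max_of_le_right (mul_le_mul_of_nonneg_left (hle _ (hc j)) (w.nonneg _))
            · refine le_max_of_le_left (mul_le_one₀ hwp.le (w.nonneg _) (ih k h2 (c j) (hc j)))
          · rw [h1, coeff_zero_eq_constantCoeff_apply, map_pow, constantCoeff_Tv, map_pow]
            exact le_max_of_le_left (pow_le_one₀ (w.nonneg _) (hc j))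
      · rw [Tv_zero_mul, Tv_zero_const (x := (p : K)) (by simp), coeff_C_mul, map_mul]
        exact le_max_of_le_right (mul_le_mul_of_nonneg_left (hle _ hr) (w.nonneg _))
    have hB1 : B ≤ max 1 (w (p : K) * B) := by
      refine csSup_le ⟨_, 0, by simp, rfl⟩ ?_
      rintro b ⟨x, hx, rfl⟩
      exact hstep x hx
    have hB2 : B ≤ 1 := by
      by_contra hlt
      push Not at hlt
      have h3 : w (p : K) * B < B := mul_lt_of_lt_one_left (by linarith) hwp
      have h4 := max_lt hlt h3
      linarith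
    exact fun x hx => (hle x hx).trans hB2
  intro x n
  by_cases hx : x = 0
  · rw [hx, Tv_zero_const (map_zero D), map_zero, map_zero]
  obtain ⟨c, hc0, hDc, hcw⟩ := hsc x hx
  have hwc : 0 < w c := w.pos hc0
  have h1 : w (c⁻¹ * x) ≤ 1 := by
    rw [map_mul, map_inv₀, hcw, inv_mul_cancel₀ (w.ne_zero hx)]
  have h2 := key n (c⁻¹ * x) h1
  have h3 : x = c * (c⁻¹ * x) := by field_simp
  have h4 : coeff n (Tv D 0 x) = c * coeff n (Tv D 0 (c⁻¹ * x)) := by
    conv_lhs => rw [h3]
    rw [Tv_zero_mul, Tv_zero_const hDc, coeff_C_mul]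
  rw [h4, map_mul, hcw]
  exact mul_le_of_le_one_right (w.nonneg _) h2

end P025H133
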