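import Vale.Agent.P025.R2.H133.Taylor
import Vale.Agent.P025.R2.H133.Bd

/-!
# Core estimate of G-S1 (blueprint (7.2))

`D` a derivation all of whose divided powers are bounded by one for `w`; `f` is, up to `p`-th
powers, arbitrarily close to a constant of `D`.  If `f = y ^ p * (1 + b)` then `D b` is small.
-/

open PowerSeries Finset

set_option linter.unusedSectionVars false

namespace P025H133

variable {K : Type*} [Field K] [CharZero K] {w : AbsoluteValue K ℝ} {D : Derivation ℤ K K}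

/-- all divided powers of `D` are bounded by one -/
def Contr (w : AbsoluteValue K ℝ) (D : Derivation ℤ K K) : Prop := ∀ x, Bd w (w x) (Tv D 0 x)

theorem Contr.D_le (h : Contr w D) (x : K) : w (D x) ≤ w x := by
  have := h x 1
  rw [coeff_Tv, nab_zero] at this
  simpa using this

theorem Contr.D_iter_le (h : Contr w D) (x : K) (n : ℕ) : w (D^[n] x / (n.factorial : K)) ≤ w x := by
  have := h x n
  rwa [coeff_Tv, nab_zero] at this

theorem Contr.bd (h : Contr w D) {x : K} (hx : x ≠ 0) : Bd w 1 (C x⁻¹ * Tv D 0 x) := by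
  intro n
  rw [coeff_C_mul, map_mul, map_inv₀]
  have h1 : 0 < w x := w.pos hx
  calc (w x)⁻¹ * w (coeff n (Tv D 0 x)) ≤ (w x)⁻¹ * w x := by
        exact mul_le_mul_of_nonneg_left (h x n) (inv_nonneg.mpr h1.le)
    _ = 1 := inv_mul_cancel₀ h1.ne'

theorem logDer_mul (D : Derivation ℤ K K) {x y : K} (hx : x ≠ 0) (hy : y ≠ 0) :
    D (x * y) / (x * y) = D x / x + D y / y := by
  rw [Derivation.leibniz, smul_eq_mul, smul_eq_mul]
  field_simp
  ring

theorem logDer_pow (D : Derivation ℤ K K) {x : K} (hx : x ≠ 0) (n : ℕ) :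
    D (x ^ n) / x ^ n = n * (D x / x) := by
  induction n with
  | zero => simp
  | succ n ih =>
    rw [pow_succ, logDer_mul D (pow_ne_zero n hx) hx, ih]
    push_cast
    ring

/-- low coefficients of `Tv D v 1` for small `v` -/
theorem coeff_Tv_one_le (hna : IsNonarchimedean w) (hD : ∀ x, w (D x) ≤ w x) {v : K} {N : ℕ}
    (hv : w v ≤ w (N.factorial : K)) {n : ℕ} (hn : n ≤ N) : w (coeff n (Tv D v 1)) ≤ 1 := by
  have hv1 : w v ≤ 1 := hv.trans (na_natCast hna _)
  rw [coeff_Tv]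
  rcases Nat.eq_zero_or_pos n with h0 | h0
  · rw [h0]; simp
  have h1 : ∀ m, w ((nab D v)^[m + 1] 1) ≤ w v := by
    intro m
    induction m with
    | zero => simp [nab]
    | succ m ih =>
      rw [Function.iterate_succ_apply', nab]
      refine (hna _ _).trans (max_le ((hD _).trans ih) ?_)
      rw [map_mul]
      exact mul_le_of_le_one_right (w.nonneg _) (ih.trans hv1)
  have h2 : w ((nab D v)^[n] 1) ≤ w v := by
    have := h1 (n - 1)
    rwa [Nat.sub_add_cancel h0] at this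
  have h3 : w (N.factorial : K) ≤ w (n.factorial : K) := by
    obtain ⟨c, hc⟩ := Nat.factorial_dvd_factorial hn
    rw [hc, Nat.cast_mul, map_mul]
    exact mul_le_of_le_one_right (w.nonneg _) (na_natCast hna _)
  have h4 : 0 < w (n.factorial : K) := w.pos (by exact_mod_cast Nat.factorial_ne_zero n)
  rw [map_div₀, div_le_one h4]
  exact h2.trans (hv.trans h3)

theorem coeff_mul_le (hna : IsNonarchimedean w) {P Q : K⟦X⟧} {N : ℕ}
    (hP : ∀ n ≤ N, w (coeff n P) ≤ 1) (hQ : Bd w 1 Q) {n : ℕ} (hn : n ≤ N) :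
    w (coeff n (P * Q)) ≤ 1 := by
  rw [coeff_mul]
  refine na_sum hna _ _ zero_le_one fun i hi => ?_
  rw [map_mul]
  have : i.1 ≤ N := by
    have := mem_antidiagonal.mp hi
    omega
  exact mul_le_one₀ (hP _ this) (w.nonneg _) (hQ _)

/-- **core estimate** -/
theorem core (hna : IsNonarchimedean w) (hD : Contr w D) {p : ℕ} (hp : p.Prime)
    {f : K} (hf : f ≠ 0)
    (hsys : ∀ ε : ℝ, 0 < ε → ∃ h : K, h ≠ 0 ∧ w (D (f * h ^ p)) ≤ ε * w (f * h ^ p))
    {y : K} (hy : y ≠ 0) {b : K} (hb : f = y ^ p * (1 + b)) (h1b : w (1 + b) = 1) :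
    w (D b) ^ p ≤ w (p : K) ^ p * w b ∨ w (D b) ^ (p - 1) ≤ w (p : K) ^ p := by
  have hpK : (p : K) ≠ 0 := by exact_mod_cast hp.ne_zero
  have hwp : 0 < w (p : K) := w.pos hpK
  set u : K := 1 + b with hu
  have hu0 : u ≠ 0 := by
    intro h
    rw [h, map_zero] at h1b
    exact zero_ne_one h1b
  set φ : K := D u / u with hφ
  set v : K := φ / p with hv
  set V : K⟦X⟧ := Tv D v 1 with hV
  -- the coefficients of `V` are bounded by one
  have hV1 : Bd w 1 V := by
    intro N
    have hN : (0 : ℝ) < w (N.factorial : K) := w.pos (by exact_mod_cast Nat.factorial_ne_zero N)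
    obtain ⟨h, hh, hh1⟩ := hsys (w (p : K) * w (N.factorial : K)) (mul_pos hwp hN)
    set x : K := (h * y)⁻¹ with hx
    have hx0 : x ≠ 0 := inv_ne_zero (mul_ne_zero hh hy)
    set f' : K := f * h ^ p with hf'
    have hf'0 : f' ≠ 0 := mul_ne_zero hf (pow_ne_zero p hh)
    have hux : u = f' * x ^ p := by
      rw [hf', hx, hb, inv_pow, mul_pow]
      field_simp
    have h1 : v = D f' / f' / p + D x / x := by
      rw [hv, hφ, hux, logDer_mul D hf'0 (pow_ne_zero p hx0), logDer_pow D hx0]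
      field_simp
    have h2 : w (D f' / f' / p) ≤ w (N.factorial : K) := by
      rw [map_div₀, map_div₀, div_div, div_le_iff₀ (mul_pos (w.pos hf'0) hwp)]
      refine hh1.trans (le_of_eq ?_)
      ring
    have h3 : V = Tv D (D f' / f' / p) 1 * (C x⁻¹ * Tv D 0 x) := by
      rw [← Tv_logDer D hx0, Tv_mul, ← h1, mul_one]
    rw [h3]
    exact coeff_mul_le hna (fun n hn => coeff_Tv_one_le hna hD.D_le h2 hn) (hD.bd hx0) le_rfl
  -- the coefficients of `V ^ p`
  have hVp : V ^ p = C u⁻¹ * Tv D 0 u := by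
    rw [hV, Tv_pow, one_pow, ← Tv_logDer D hu0]
    congr 1
    rw [hv, hφ]
    field_simp
  have hDub : ∀ n, 1 ≤ n → D^[n] u = D^[n] b := by
    intro n hn
    obtain ⟨m, rfl⟩ := Nat.exists_eq_add_of_le' hn
    rw [Function.iterate_succ_apply, Function.iterate_succ_apply, hu, map_add]
    congr 1
    simp
  have hR : ∀ n, 1 ≤ n → w (coeff n (V ^ p)) ≤ w b := by
    intro n hn
    rw [hVp, coeff_C_mul, map_mul, map_inv₀, h1b, inv_one, one_mul, coeff_Tv, nab_zero,
      hDub n hn]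
    exact hD.D_iter_le b n
  -- the supremum
  have hbdd : BddAbove (Set.range fun n : ℕ => w (coeff (n + 1) V)) :=
    ⟨1, by rintro _ ⟨n, rfl⟩; exact hV1 _⟩
  set δ : ℝ := ⨆ n : ℕ, w (coeff (n + 1) V) with hδ
  have hVδ : ∀ n, 1 ≤ n → w (coeff n V) ≤ δ := by
    intro n hn
    have := le_ciSup hbdd (n - 1)
    simpa [Nat.sub_add_cancel hn] using this
  have hδ0 : 0 ≤ δ := (w.nonneg _).trans (hVδ 1 le_rfl)
  have hδ1 : δ ≤ 1 := ciSup_le fun n => hV1 _
  have hmain : ∀ n, 1 ≤ n → w (coeff n V) ^ p ≤ max (w b) (w (p : K) * δ) := by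
    intro n hn
    have h1 := frob_coeff hna hp V hδ0 hδ1 (hV1 0) hVδ n
    have h2 := hR (p * n) (Nat.mul_pos hp.pos hn)
    have h3 : coeff n V ^ p = coeff (p * n) (V ^ p) - (coeff (p * n) (V ^ p) - coeff n V ^ p) := by
      ring
    rw [← map_pow, h3]
    exact (na_sub hna _ _).trans (max_le_max h2 h1)
  have hM0 : 0 ≤ max (w b) (w (p : K) * δ) := le_max_of_le_left (w.nonneg b)
  have hδp : δ ^ p ≤ max (w b) (w (p : K) * δ) := by
    have h1 : δ ≤ (max (w b) (w (p : K) * δ)) ^ ((p : ℝ)⁻¹) := by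
      refine ciSup_le fun n => ?_
      have h2 := hmain (n + 1) (Nat.le_add_left 1 n)
      have h3 := Real.rpow_le_rpow (pow_nonneg (w.nonneg _) p) h2 (inv_nonneg.mpr (Nat.cast_nonneg p))
      rwa [Real.pow_rpow_inv_natCast (w.nonneg _) hp.ne_zero] at h3
    calc δ ^ p ≤ ((max (w b) (w (p : K) * δ)) ^ ((p : ℝ)⁻¹)) ^ p := pow_le_pow_left₀ hδ0 h1 p
      _ = max (w b) (w (p : K) * δ) := Real.rpow_inv_natCast_pow hM0 hp.ne_zero
  have hDb : w (D b) ≤ w (p : K) * δ := by
    have h1 : w (coeff 1 V) ≤ δ := hVδ 1 le_rfl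
    have h2 : coeff 1 V = D b / u / p := by
      rw [hV, coeff_Tv, Function.iterate_one, Nat.factorial_one, Nat.cast_one, div_one, nab,
        hv, hφ, hu, map_add]
      simp
    rw [h2, map_div₀, map_div₀, h1b, div_one, div_le_iff₀ hwp] at h1
    rwa [mul_comm]
  rcases le_max_iff.mp hδp with h | h
  · left
    calc w (D b) ^ p ≤ (w (p : K) * δ) ^ p := pow_le_pow_left₀ (w.nonneg _) hDb p
      _ = w (p : K) ^ p * δ ^ p := mul_pow _ _ _
      _ ≤ w (p : K) ^ p * w b := mul_le_mul_of_nonneg_left h (pow_nonneg hwp.le p)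
  · right
    have h5 : δ ^ (p - 1) ≤ w (p : K) := by
      rcases hδ0.eq_or_lt with h0 | h0
      · rw [← h0, zero_pow (Nat.sub_ne_zero_of_lt hp.one_lt)]
        exact hwp.le
      · have h6 : δ ^ (p - 1) * δ ≤ w (p : K) * δ := by
          rwa [← pow_succ, Nat.sub_add_cancel hp.one_le]
        exact le_of_mul_le_mul_right h6 h0
    calc w (D b) ^ (p - 1) ≤ (w (p : K) * δ) ^ (p - 1) := pow_le_pow_left₀ (w.nonneg _) hDb _
      _ = w (p : K) ^ (p - 1) * δ ^ (p - 1) := mul_pow _ _ _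
      _ ≤ w (p : K) ^ (p - 1) * w (p : K) :=
        mul_le_mul_of_nonneg_left h5 (pow_nonneg hwp.le _)
      _ = w (p : K) ^ p := by rw [← pow_succ, Nat.sub_add_cancel hp.one_le]

end P025H133
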