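import Mathlib

/-!
# The derivation `d/dt` (for G-S1)

For `t` transcendental over `C` and `K` algebraic over `C(t)` there is a `C`-derivation `D` of `K`
with `D t = 1`.
-/

open Polynomial IntermediateField

universe u v

namespace P025H133

theorem exists_der {C : Type u} {K : Type v} [Field C] [CharZero C] [Field K] [Algebra C K]
    (t : K) (ht : Transcendental C t) [Algebra.IsAlgebraic C⟮t⟯ K] :
    ∃ D : Derivation C K K, D t = 1 := by
  classical
  -- `K` as an algebra over `C(X)`
  let e : RatFunc C ≃ₐ[C] C⟮t⟯ := RatFunc.algEquivOfTranscendental t ht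
  let a1 : Algebra (RatFunc C) K := ((algebraMap C⟮t⟯ K).comp (e : RatFunc C →+* C⟮t⟯)).toAlgebra
  have hmap : ∀ x : RatFunc C, algebraMap (RatFunc C) K x = (e x : K) := fun _ => rfl
  have hs1 : IsScalarTower C (RatFunc C) K := by
    refine IsScalarTower.of_algebraMap_eq fun c => ?_
    rw [hmap, AlgEquiv.commutes]
    rfl
  let a2 : Algebra C[X] K := ((algebraMap (RatFunc C) K).comp (algebraMap C[X] (RatFunc C))).toAlgebra
  have hs2 : IsScalarTower C[X] (RatFunc C) K := IsScalarTower.of_algebraMap_eq fun _ => rfl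
  have hs3 : IsScalarTower C C[X] K := by
    refine IsScalarTower.of_algebraMap_eq fun c => ?_
    rw [IsScalarTower.algebraMap_apply C (RatFunc C) K, IsScalarTower.algebraMap_apply C C[X] (RatFunc C)]
    rfl
  have hX : algebraMap C[X] K X = t := by
    rw [IsScalarTower.algebraMap_apply C[X] (RatFunc C) K, RatFunc.algebraMap_X, hmap,
      RatFunc.algEquivOfTranscendental_X]
  have hK : Algebra.IsAlgebraic (RatFunc C) K := by
    refine ⟨fun x => ?_⟩
    obtain ⟨P, hP0, hP⟩ := Algebra.IsAlgebraic.isAlgebraic (R := C⟮t⟯) x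
    refine ⟨P.map (e.symm : C⟮t⟯ →+* RatFunc C), ?_, ?_⟩
    · rw [Ne, Polynomial.map_eq_zero]; exact hP0
    · rw [aeval_def, eval₂_map]
      have : (algebraMap (RatFunc C) K).comp (e.symm : C⟮t⟯ →+* RatFunc C) = algebraMap C⟮t⟯ K := by
        ext y
        change algebraMap C⟮t⟯ K (e (e.symm y)) = _
        rw [AlgEquiv.apply_symm_apply]
      rw [this]
      exact hP
  have hcz : CharZero (RatFunc C) := charZero_of_injective_algebraMap (algebraMap C (RatFunc C)).injective
  have hsep : Algebra.IsSeparable (RatFunc C) K := inferInstance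
  have h1 : Algebra.FormallyEtale (RatFunc C) K := Algebra.FormallyEtale.of_isSeparable _ _
  have h2 : Algebra.FormallyEtale C[X] (RatFunc C) :=
    Algebra.FormallyEtale.of_isLocalization (nonZeroDivisors C[X])
  have h3 : Algebra.FormallyEtale C[X] K := Algebra.FormallyEtale.comp C[X] (RatFunc C) K
  -- the functional
  let φ : (Ω[C[X]⁄C]) →ₗ[C[X]] K :=
    (Algebra.linearMap C[X] K).comp (KaehlerDifferential.polynomialEquiv C).toLinearMap
  have hbc := KaehlerDifferential.isBaseChange_of_formallyEtale C C[X] K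
  let ψ : (Ω[K⁄C]) →ₗ[K] K := hbc.lift φ
  refine ⟨ψ.compDer (KaehlerDifferential.D C K), ?_⟩
  change ψ (KaehlerDifferential.D C K t) = 1
  have h4 : KaehlerDifferential.D C K t =
      KaehlerDifferential.map C C C[X] K (KaehlerDifferential.D C C[X] X) := by
    rw [KaehlerDifferential.map_D, hX]
  rw [h4]
  have h5 := hbc.lift_eq φ (KaehlerDifferential.D C C[X] X)
  rw [show ψ = hbc.lift φ from rfl, h5]
  change algebraMap C[X] K (KaehlerDifferential.polynomialEquiv C (KaehlerDifferential.D C C[X] X)) = 1
  rw [KaehlerDifferential.polynomialEquiv_D, derivative_X, map_one]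

end P025H133
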