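import Vale.Agent.P025.R2.H222.Def

/-!
# P025 G-LA-b, piece P6 (helper133): over the boundary `β` is an `l`-th power
-/

universe u v

namespace P025H133

open Polynomial P025H373 P025H552 TensorProduct P025H572 P025H222

noncomputable section

set_option linter.unusedSectionVars false

variable {C : Type u} [NontriviallyNormedField C] [IsUltrametricDist C] [CompleteSpace C]
  [IsAlgClosed C] [CharZero C]

variable {p h l : ℕ} {ζ κ Y0 ρ : C} {A V : C[X]}

lemma tt_ne : tt C ≠ 0 := by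
  intro h0
  have h1 : ‖tt C‖ = 1 := norm_tt
  rw [h0, norm_zero] at h1
  exact zero_ne_one h1

lemma norm_bs (b : C) (e : ℕ) : ‖algebraMap C (F0 C) b * (tt C)⁻¹ ^ e‖ = ‖b‖ := by
  have h1 : ‖tt C‖ = 1 := norm_tt
  rw [norm_mul, norm_pow, norm_inv, h1, inv_one, one_pow, mul_one, norm_algebraMap_C]

/-- at a point of the boundary -/
theorem pow_point (d : Dat p h l ζ κ Y0 ρ A V) {b γ : C} {q e e' : ℕ}
    (hq : q = p * h) (he0 : e ≠ 0) (hhb : ‖(h : C)‖ < ‖b‖)
    {ψ : LL C p h κ ρ →+* BB q e b} (hψ : IsPsi p h κ Y0 ρ γ b q e e' ψ)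
    {β : LL C p h κ ρ} {r : F2 C ⊗[RatFunc C] LL C p h κ ρ}
    (hr : (1 : F2 C) ⊗ₜ[RatFunc C] β = r ^ l)
    {E : Type v} [Field E] [Algebra (F0 C) E] [FiniteDimensional (F0 C) E]
    [Algebra C E] [IsScalarTower C (F0 C) E]
    (π : AdjoinRoot (X ^ q - Polynomial.C (algebraMap (F2 C) (F0 C) (xb b e)) : (F0 C)[X])
      →ₐ[F0 C] E) :
    ∃ z : E, z ^ l = π (mapB q (xb b e) (F0 C) (ψ β)) := by
  set Θ : LL C p h κ ρ →+* E := (π : _ →+* E).comp ((mapB q (xb b e) (F0 C)).comp ψ) with hΘ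
  set τ : E := Θ (algebraMap (RatFunc C) (LL C p h κ ρ) RatFunc.X) with hτdef
  have hcst : ∀ c : C, π (mapB q (xb b e) (F0 C) (cst q (xb b e) c)) = algebraMap C E c := by
    intro c
    rw [mapB_cst, IsScalarTower.algebraMap_apply C (F0 C) E]
    exact π.commutes _
  have hΘC : ∀ c : C, Θ (algebraMap C (LL C p h κ ρ) c) = algebraMap C E c := by
    intro c
    change π (mapB q (xb b e) (F0 C) (ψ (algebraMap C (LL C p h κ ρ) c))) = _
    rw [hψ.cst, hcst]
  set Y : E := π (AdjoinRoot.root _) with hY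
  have hYq : Y ^ q = algebraMap (F0 C) E (algebraMap (F2 C) (F0 C) (xb b e)) := by
    rw [hY, ← map_pow, root_pow]
    exact π.commutes _
  have hx : algebraMap (F2 C) (F0 C) (xb b e) = 1 + algebraMap C (F0 C) b * (tt C)⁻¹ ^ e :=
    coe_xb b e
  have hrel : algebraMap C E Y0 * (1 + algebraMap C E ρ * τ) = Y ^ p := by
    have h1 := congrArg (fun z => π (mapB q (xb b e) (F0 C) z)) hψ.tt
    simp only [map_mul, map_add, map_one, map_pow, hcst, mapB_root] at h1
    exact h1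
  have hQ : aeval τ (Qp h Y0 ρ) = algebraMap (F0 C) E (algebraMap C (F0 C) b * (tt C)⁻¹ ^ e) := by
    have h1 : aeval τ (Qp h Y0 ρ) = (algebraMap C E Y0 * (1 + algebraMap C E ρ * τ)) ^ h - 1 := by
      rw [Qp]
      simp only [map_sub, map_mul, map_pow, map_add, map_one, aeval_X, aeval_C, mul_pow]
    rw [h1, hrel, ← pow_mul, ← hq, hYq, hx, map_add, map_one, add_sub_cancel_left]
  have hb0 : b ≠ 0 := by
    rintro rfl
    rw [norm_zero] at hhb
    exact absurd hhb (not_lt.2 (norm_nonneg _))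
  -- `τ` is not a constant
  have hnc : ∀ c : C, τ ≠ algebraMap C E c := by
    intro c hc
    rw [hc, Polynomial.aeval_algebraMap_apply, IsScalarTower.algebraMap_apply C (F0 C) E] at hQ
    have h1 := (algebraMap (F0 C) E).injective hQ
    set a : C := aeval c (Qp h Y0 ρ) with ha
    have h2 : aeval (tt C) (Polynomial.C a * X ^ e - Polynomial.C b : C[X]) = 0 := by
      rw [map_sub, map_mul, map_pow, aeval_X, aeval_C, aeval_C, h1, inv_pow, mul_assoc,
        inv_mul_cancel₀ (pow_ne_zero _ tt_ne), mul_one, sub_self]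
    have h3 : (Polynomial.C a * X ^ e - Polynomial.C b : C[X]) ≠ 0 := by
      intro h0
      have h4 := congrArg (Polynomial.eval 0) h0
      simp [he0] at h4
      exact hb0 h4
    exact aeval_tt_ne_zero h3 h2
  have htr : ∀ P : C[X], P ≠ 0 → aeval τ⁻¹ P ≠ 0 := by
    intro P hP h0
    have h1 : IsAlgebraic C τ⁻¹ := ⟨P, hP, h0⟩
    have h2 : IsIntegral C τ⁻¹ := h1.isIntegral
    have h3 := IsAlgClosed.degree_eq_one_of_irreducible C (minpoly.irreducible h2)
    obtain ⟨c, hc⟩ := minpoly.mem_range_of_degree_eq_one C τ⁻¹ h3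
    refine hnc c⁻¹ ?_
    rw [map_inv₀, hc, inv_inv]
  obtain ⟨φ, hφ⟩ := exists_hom_F0 (τ := τ) (Q := Qp h Y0 ρ)
    (c := algebraMap C (F0 C) b * (tt C)⁻¹ ^ e)
    (by rw [norm_bs]; exact d.hq.trans_lt hhb) hQ htr
  have hφX : φ (algebraMap (RatFunc C) (F2 C) RatFunc.X) = τ := by
    have h1 : s2 C = (algebraMap (RatFunc C) (F2 C) RatFunc.X)⁻¹ := rfl
    have h2 : algebraMap (RatFunc C) (F2 C) RatFunc.X = (s2 C)⁻¹ := by rw [h1, inv_inv]
    rw [h2, map_inv₀, s2_eq, hφ, inv_inv]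
  have hagree : Θ.comp (algebraMap (RatFunc C) (LL C p h κ ρ)) =
      (φ : F2 C →+* E).comp (algebraMap (RatFunc C) (F2 C)) := by
    apply IsLocalization.ringHom_ext (nonZeroDivisors C[X])
    apply Polynomial.ringHom_ext
    · intro c
      have e1 : algebraMap C[X] (RatFunc C) (Polynomial.C c) = algebraMap C (RatFunc C) c := by
        rw [RatFunc.algebraMap_C]; rfl
      change Θ (algebraMap (RatFunc C) (LL C p h κ ρ) (algebraMap C[X] (RatFunc C)
        (Polynomial.C c))) = φ (algebraMap (RatFunc C) (F2 C) (algebraMap C[X] (RatFunc C)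
        (Polynomial.C c)))
      rw [e1, ← IsScalarTower.algebraMap_apply, hΘC, ← IsScalarTower.algebraMap_apply, φ.commutes]
    · change Θ (algebraMap (RatFunc C) (LL C p h κ ρ) (algebraMap C[X] (RatFunc C) X)) =
        φ (algebraMap (RatFunc C) (F2 C) (algebraMap C[X] (RatFunc C) X))
      rw [RatFunc.algebraMap_X, hφX]
  let algE : Algebra (RatFunc C) E := ((φ : F2 C →+* E).comp (algebraMap (RatFunc C) (F2 C))).toAlgebra
  let φ' : F2 C →ₐ[RatFunc C] E := { (φ : F2 C →+* E) with commutes' := fun f => rfl }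
  let Θ' : LL C p h κ ρ →ₐ[RatFunc C] E :=
    { Θ with commutes' := fun f => RingHom.congr_fun hagree f }
  let Λ : F2 C ⊗[RatFunc C] LL C p h κ ρ →ₐ[RatFunc C] E :=
    Algebra.TensorProduct.lift φ' Θ' (fun _ _ => Commute.all _ _)
  have h1 : Λ ((1 : F2 C) ⊗ₜ[RatFunc C] β) = Θ β := by
    rw [Algebra.TensorProduct.lift_tmul, map_one, one_mul]
    rfl
  refine ⟨Λ r, ?_⟩
  change _ = Θ β
  rw [← h1, hr]
  exact (Λ.toRingHom.toMonoidHom.map_pow r l).symm

end

end P025H133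

namespace P025H222

open Polynomial P025H373 P025H552 TensorProduct P025H572

noncomputable section

variable {C : Type u} [NontriviallyNormedField C] [IsUltrametricDist C] [CompleteSpace C]
  [IsAlgClosed C] [CharZero C]

variable {p h l : ℕ} {ζ κ Y0 ρ : C} {A V : C[X]}

/-- P6 : `β` is an `l`-th power over the boundary -/
theorem pow_mapB (d : Dat p h l ζ κ Y0 ρ A V) (hp : p ≠ 0) (hh : h ≠ 0) {b γ : C} {q e e' : ℕ}
    (hq : q = p * h) (he : e = e' * p) (he' : e' ≠ 0) (hhb : ‖(h : C)‖ < ‖b‖) (hb1 : ‖b‖ < 1)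
    {ψ : LL C p h κ ρ →+* BB q e b} (hψ : IsPsi p h κ Y0 ρ γ b q e e' ψ)
    {β : LL C p h κ ρ} {r : F2 C ⊗[RatFunc C] LL C p h κ ρ}
    (hr : (1 : F2 C) ⊗ₜ[RatFunc C] β = r ^ l) :
    ∃ z, z ^ l = mapB q (xb b e) (F0 C) (ψ β) := by
  have hq0 : q ≠ 0 := by rw [hq]; exact mul_ne_zero hp hh
  have he0 : e ≠ 0 := by rw [he]; exact mul_ne_zero he' hp
  have : NeZero q := ⟨hq0⟩
  have hc0 : CharZero (F0 C) := charZero_of_injective_algebraMap (algebraMap C (F0 C)).injective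
  have hx0 : algebraMap (F2 C) (F0 C) (xb b e) ≠ 0 :=
    (_root_.map_ne_zero _).2 (xb_ne_zero b hb1 e)
  have hred : IsReduced (AdjoinRoot (X ^ q -
    Polynomial.C (algebraMap (F2 C) (F0 C) (xb b e)) : (F0 C)[X])) := adj_reduced q hq0 _ hx0
  apply isPow_of_forall_maximal
  intro m
  let fM : Field (AdjoinRoot (X ^ q -
    Polynomial.C (algebraMap (F2 C) (F0 C) (xb b e)) : (F0 C)[X]) ⧸ m.asIdeal) :=
    Ideal.Quotient.field _
  exact P025H133.pow_point d hq he0 hhb hψ hr (Ideal.Quotient.mkₐ (F0 C) m.asIdeal)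

end

end P025H222
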