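import Vale.Agent.P025.R2.H133.Core

/-!
# The residual `p`-basis and the derivation; the contradiction (for G-S1)
-/

open Finset

set_option linter.unusedSectionVars false

namespace P025H133

variable {K : Type*} [Field K] [CharZero K] {w : AbsoluteValue K ℝ} {D : Derivation ℤ K K}

/-- `t` is a residual `p`-basis -/
structure PB (p : ℕ) (w : AbsoluteValue K ℝ) (t : K) : Prop where
  gen : ∀ x, w x ≤ 1 → ∃ c : ℕ → K, (∀ j, w (c j) ≤ 1) ∧
    w (x - ∑ j ∈ range p, t ^ j * c j ^ p) < 1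
  ind : ∀ c : ℕ → K, (∀ j, w (c j) ≤ 1) → w (∑ j ∈ range p, t ^ j * c j ^ p) < 1 →
    ∀ j < p, w (c j) < 1

theorem na_lt {r : ℝ} (hna : IsNonarchimedean w) {x y : K} (hx : w x < r) (hy : w y < r) :
    w (x + y) < r := (hna _ _).trans_lt (max_lt hx hy)

theorem na_sub_lt {r : ℝ} (hna : IsNonarchimedean w) {x y : K} (hx : w x < r) (hy : w y < r) :
    w (x - y) < r := (na_sub hna _ _).trans_lt (max_lt hx hy)

theorem na_sum_lt (hna : IsNonarchimedean w) {ι : Type*} (s : Finset ι) (f : ι → K) {r : ℝ}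
    (hr : 0 < r) (h : ∀ i ∈ s, w (f i) < r) : w (∑ i ∈ s, f i) < r := by
  classical
  induction s using Finset.induction_on with
  | empty => simpa using hr
  | insert a s ha ih =>
    rw [Finset.sum_insert ha]
    exact na_lt hna (h a (Finset.mem_insert_self a s))
      (ih fun i hi => h i (Finset.mem_insert_of_mem hi))

theorem na_intCast (hna : IsNonarchimedean w) (n : ℤ) : w (n : K) ≤ 1 := by
  rcases Int.natAbs_eq n with h | h <;> rw [h]
  · simpa using na_natCast hna n.natAbs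
  · have := na_natCast hna n.natAbs
    rw [Int.cast_neg, AbsoluteValue.map_neg]
    simpa using this

/-- integers prime to `p` have absolute value one -/
theorem w_natCast_eq_one (hna : IsNonarchimedean w) {p : ℕ} (hp : p.Prime)
    (hwp : w (p : K) < 1) {n : ℕ} (h0 : 0 < n) (hn : n < p) : w (n : K) = 1 := by
  refine le_antisymm (na_natCast hna n) ?_
  by_contra hlt
  push Not at hlt
  have hcop : Nat.Coprime p n := Nat.coprime_of_lt_prime h0.ne' hn hp
  obtain ⟨a, b, hab⟩ := Nat.isCoprime_iff_coprime.mpr hcop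
  have h1 : (a : K) * (p : K) + (b : K) * (n : K) = 1 := by
    have := congrArg (fun z : ℤ => (z : K)) hab
    push_cast at this
    exact this
  have h2 : w ((a : K) * (p : K) + (b : K) * (n : K)) < 1 := by
    refine na_lt hna ?_ ?_
    · rw [map_mul]
      exact mul_lt_one_of_nonneg_of_lt_one_right (na_intCast hna a) (w.nonneg _) hwp
    · rw [map_mul]
      exact mul_lt_one_of_nonneg_of_lt_one_right (na_intCast hna b) (w.nonneg _) hlt
  rw [h1, map_one] at h2
  exact lt_irrefl _ h2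

/-- the derivation on an element that is not a residual `p`-th power -/
theorem D_eq_one (hna : IsNonarchimedean w) (hD : ∀ x, w (D x) ≤ w x) {p : ℕ} (hp : p.Prime)
    (hwp : w (p : K) < 1) {t : K} (ht : w t ≤ 1) (hDt : D t = 1) (hpb : PB p w t)
    {b : K} (hb : w b ≤ 1) (hb' : ∀ a, w a ≤ 1 → ¬ w (b - a ^ p) < 1) : w (D b) = 1 := by
  refine le_antisymm ((hD b).trans hb) ?_
  by_contra hlt
  push Not at hlt
  obtain ⟨c, hc, hbc⟩ := hpb.gen b hb
  set s := b - ∑ j ∈ range p, t ^ j * c j ^ p with hs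
  have hbs : b = ∑ j ∈ range p, t ^ j * c j ^ p + s := by rw [hs]; ring
  have htp : ∀ n : ℕ, w (t ^ n) ≤ 1 := fun n => by
    rw [map_pow]; exact pow_le_one₀ (w.nonneg _) ht
  have hcp : ∀ j n : ℕ, w (c j ^ n) ≤ 1 := fun j n => by
    rw [map_pow]; exact pow_le_one₀ (w.nonneg _) (hc j)
  -- derivative of one term
  have hterm : ∀ j, w (D (t ^ j * c j ^ p) - j * t ^ (j - 1) * c j ^ p) < 1 := by
    intro j
    have h1 : D (t ^ j * c j ^ p) - j * t ^ (j - 1) * c j ^ p =
        t ^ j * (p * c j ^ (p - 1) * D (c j)) := by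
      rw [Derivation.leibniz, Derivation.leibniz_pow, Derivation.leibniz_pow, hDt]
      simp only [smul_eq_mul, nsmul_eq_mul]
      ring
    rw [h1, map_mul, map_mul, map_mul]
    have h2 : w (D (c j)) ≤ 1 := (hD _).trans (hc j)
    have h3 : w (p : K) * w (c j ^ (p - 1)) * w (D (c j)) < 1 := by
      calc w (p : K) * w (c j ^ (p - 1)) * w (D (c j)) ≤ w (p : K) * w (c j ^ (p - 1)) :=
            mul_le_of_le_one_right (mul_nonneg (w.nonneg _) (w.nonneg _)) h2
        _ ≤ w (p : K) := mul_le_of_le_one_right (w.nonneg _) (hcp _ _)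
        _ < 1 := hwp
    calc w (t ^ j) * (w (p : K) * w (c j ^ (p - 1)) * w (D (c j))) ≤
          1 * (w (p : K) * w (c j ^ (p - 1)) * w (D (c j))) :=
          mul_le_mul_of_nonneg_right (htp j)
            (mul_nonneg (mul_nonneg (w.nonneg _) (w.nonneg _)) (w.nonneg _))
      _ < 1 := by rw [one_mul]; exact h3
  have hsum1 : w (∑ j ∈ range p, (j : K) * t ^ (j - 1) * c j ^ p) < 1 := by
    have h1 : ∑ j ∈ range p, (j : K) * t ^ (j - 1) * c j ^ p = D b -
        (∑ j ∈ range p, (D (t ^ j * c j ^ p) - j * t ^ (j - 1) * c j ^ p) + D s) := by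
      conv_rhs => rw [hbs]
      rw [map_add, map_sum, sum_sub_distrib]
      ring
    rw [h1]
    refine na_sub_lt hna hlt (na_lt hna (na_sum_lt hna _ _ zero_lt_one fun j _ => hterm j) ?_)
    exact (hD s).trans_lt hbc
  -- shift
  have hsum2 : w (∑ i ∈ range (p - 1), ((i + 1 : ℕ) : K) * t ^ i * c (i + 1) ^ p) < 1 := by
    have hp1 : p = (p - 1) + 1 := (Nat.sub_add_cancel hp.one_le).symm
    rw [hp1, sum_range_succ', ← hp1] at hsum1
    simpa using hsum1
  -- make the coefficients `p`-th powers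
  obtain ⟨c', hc'⟩ : ∃ c' : ℕ → K, c' = fun i => if i < p - 1 then ((i + 1 : ℕ) : K) * c (i + 1)
      else 0 := ⟨_, rfl⟩
  have hc'1 : ∀ i, w (c' i) ≤ 1 := by
    intro i
    rw [hc']
    dsimp only
    split_ifs
    · rw [map_mul]
      exact mul_le_one₀ (na_natCast hna _) (w.nonneg _) (hc _)
    · simp
  have hsum3 : w (∑ j ∈ range p, t ^ j * c' j ^ p) < 1 := by
    have hp1 : p = (p - 1) + 1 := (Nat.sub_add_cancel hp.one_le).symm
    have h1 : ∑ j ∈ range p, t ^ j * c' j ^ p =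
        ∑ j ∈ range (p - 1), t ^ j * (((j + 1 : ℕ) : K) * c (j + 1)) ^ p := by
      conv_lhs => rw [hp1]
      rw [sum_range_succ]
      have h2 : c' (p - 1) = 0 := by
        rw [hc']
        dsimp only
        rw [if_neg (lt_irrefl _)]
      rw [h2, ← hp1, zero_pow hp.ne_zero, mul_zero, add_zero]
      refine sum_congr rfl fun j hj => ?_
      rw [hc']
      dsimp only
      rw [if_pos (mem_range.mp hj)]
    have h2 : ∑ j ∈ range (p - 1), t ^ j * (((j + 1 : ℕ) : K) * c (j + 1)) ^ p =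
        ∑ i ∈ range (p - 1), ((i + 1 : ℕ) : K) * t ^ i * c (i + 1) ^ p +
        ∑ i ∈ range (p - 1), (((i + 1 : ℕ) : K) ^ p - ((i + 1 : ℕ) : K)) * (t ^ i * c (i + 1) ^ p) := by
      rw [← sum_add_distrib]
      refine sum_congr rfl fun j _ => ?_
      rw [mul_pow]
      ring
    rw [h1, h2]
    refine na_lt hna hsum2 (na_sum_lt hna _ _ zero_lt_one fun i _ => ?_)
    have h3 : (p : ℤ) ∣ ((i + 1 : ℕ) : ℤ) ^ p - ((i + 1 : ℕ) : ℤ) := by
      have := Fact.mk hp
      rw [← ZMod.intCast_zmod_eq_zero_iff_dvd]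
      push_cast
      rw [ZMod.pow_card, sub_self]
    obtain ⟨m, hm⟩ := h3
    have h4 : ((i + 1 : ℕ) : K) ^ p - ((i + 1 : ℕ) : K) = (p : K) * (m : K) := by
      have := congrArg (fun z : ℤ => (z : K)) hm
      push_cast at this ⊢
      exact this
    rw [h4, map_mul, map_mul, map_mul]
    have h5 : w (p : K) * w (m : K) < 1 :=
      (mul_le_of_le_one_right (w.nonneg _) (na_intCast hna m)).trans_lt hwp
    exact mul_lt_one_of_nonneg_of_lt_one_left (mul_nonneg (w.nonneg _) (w.nonneg _)) h5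
      (mul_le_one₀ (htp i) (w.nonneg _) (hcp _ _))
  have hc'2 := hpb.ind c' hc'1 hsum3
  have hc2 : ∀ j, 1 ≤ j → j < p → w (c j) < 1 := by
    intro j hj1 hjp
    have h1 := hc'2 (j - 1) (by omega)
    rw [hc'] at h1
    dsimp only at h1
    rw [if_pos (by omega), Nat.sub_add_cancel hj1, map_mul,
      w_natCast_eq_one hna hp hwp hj1 hjp, one_mul] at h1
    exact h1
  refine hb' (c 0) (hc 0) ?_
  have hp1 : p = (p - 1) + 1 := (Nat.sub_add_cancel hp.one_le).symm
  have h1 : b - c 0 ^ p = ∑ j ∈ range (p - 1), t ^ (j + 1) * c (j + 1) ^ p + s := by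
    conv_lhs => rw [hbs, hp1]
    rw [sum_range_succ', ← hp1]
    ring
  rw [h1]
  refine na_lt hna (na_sum_lt hna _ _ zero_lt_one fun j hj => ?_) hbc
  rw [map_mul, map_pow w (c (j + 1))]
  have h2 := hc2 (j + 1) (Nat.le_add_left 1 j) (by have := mem_range.mp hj; omega)
  exact mul_lt_one_of_nonneg_of_lt_one_right (htp _) (pow_nonneg (w.nonneg _) _)
    (pow_lt_one₀ (w.nonneg _) h2 hp.ne_zero)

/-- **the contradiction** -/
theorem no_alt (hna : IsNonarchimedean w) (hD : Contr w D) {p : ℕ} (hp : p.Prime)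
    (hwp : w (p : K) < 1) {t : K} (ht : w t ≤ 1) (hDt : D t = 1) (hpb : PB p w t) {f : K}
    (hf : f ≠ 0)
    (hsys : ∀ ε : ℝ, 0 < ε → ∃ h : K, h ≠ 0 ∧ w (D (f * h ^ p)) ≤ ε * w (f * h ^ p))
    {y : K} (hy : y ≠ 0) {β b : K} (hDβ : D β = 0) (hβ1 : w β ≤ 1)
    (hβ : w (p : K) ^ p < w β ^ (p - 1)) (hb : w b = 1) (hfy : f / y ^ p - 1 = β * b)
    (hroot : w β = 1 → ∃ δ, δ ^ p = -β⁻¹)
    (hb' : ∀ a, w a ≤ 1 → ¬ w (b - a ^ p) < 1) : False := by
  have hDb : w (D b) = 1 := D_eq_one hna hD.D_le hp hwp ht hDt hpb hb.le hb'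
  have hβ0 : 0 < w β := by
    rcases (w.nonneg β).eq_or_lt with h | h
    · rw [← h, zero_pow (Nat.sub_ne_zero_of_lt hp.one_lt)] at hβ
      exact absurd hβ (not_lt.mpr (pow_nonneg (w.nonneg _) p))
    · exact h
  have hβne : β ≠ 0 := by
    rintro rfl
    rw [map_zero] at hβ0
    exact lt_irrefl _ hβ0
  have hyp : y ^ p ≠ 0 := pow_ne_zero p hy
  have hf' : f = y ^ p * (1 + β * b) := by
    rw [← hfy]
    field_simp
    ring
  have hwβb : w (β * b) = w β := by rw [map_mul, hb, mul_one]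
  have h1b : w (1 + β * b) = 1 := by
    rcases hβ1.eq_or_lt with h | h
    · refine le_antisymm ((hna _ _).trans (max_le (by rw [map_one]) (hwβb.trans h).le)) ?_
      by_contra hlt
      push Not at hlt
      obtain ⟨δ, hδ⟩ := hroot h
      have h2 : w δ ^ p = 1 := by
        rw [← map_pow, hδ, AbsoluteValue.map_neg, map_inv₀, h, inv_one]
      have h3 : w δ = 1 := (pow_eq_one_iff_of_nonneg (w.nonneg _) hp.ne_zero).mp h2
      refine hb' δ h3.le ?_
      have h4 : b - δ ^ p = β⁻¹ * (1 + β * b) := by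
        rw [hδ]
        field_simp
        ring
      rw [h4, map_mul, map_inv₀, h, inv_one, one_mul]
      exact hlt
    · have h2 : w (1 : K) ≠ w (β * b) := by
        rw [map_one, hwβb]
        exact h.ne'
      rw [hna.add_eq_max_of_ne h2, map_one, hwβb]
      exact max_eq_left h.le
  have hDβb : w (D (β * b)) = w β := by
    rw [Derivation.leibniz, hDβ, smul_zero, add_zero, smul_eq_mul, map_mul, hDb, mul_one]
  rcases core hna hD hp hf hsys hy hf' h1b with h | h
  · rw [hDβb, hwβb] at h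
    have h2 : w β ^ (p - 1) * w β ≤ w (p : K) ^ p * w β := by
      rwa [← pow_succ, Nat.sub_add_cancel hp.one_le]
    exact absurd (le_of_mul_le_mul_right h2 hβ0) (not_le.mpr hβ)
  · rw [hDβb] at h
    exact absurd h (not_le.mpr hβ)

end P025H133
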