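import Vale.Agent.P025.R2.H746.Kap
import Vale.Agent.P025.R2.H458.Approx
import Vale.Agent.P025.R2.H992.Nearest
import Vale.Agent.P025.R2.H133.Step

/-!
# A residual `p`-basis generates the valuation ring modulo `p` (for G-S1)
-/

open Finset Polynomial P025H373 P025H746 IntermediateField

set_option linter.unusedSectionVars false

namespace P025H133

section defs

variable (C : Type*) {K : Type*} [NormedField C] [IsUltrametricDist C] [Field K] [Algebra C K]

/-- `z` is an orthonormal `C(T)`-basis of `K` for the maximum of all `w` over the Gauss norm -/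
structure ONB (T : K) {n : ℕ} (z : Fin n → K) : Prop where
  le : ∀ w : NV C K, w.OverG T → ∀ k, w (z k) ≤ 1
  span : ∀ x : K, ∃ (Q : C[X]) (P : Fin n → C[X]), Q ≠ 0 ∧
    aeval T Q * x = ∑ k, aeval T (P k) * z k
  on : ∀ (P : Fin n → C[X]) (r : ℝ),
    (∀ w : NV C K, w.OverG T → w (∑ k, aeval T (P k) * z k) ≤ r) → ∀ k, gp (P k) ≤ r

variable {C}

/-- `x = ∑ t^j c_j^p + p r` -/
def Good (p : ℕ) (w : NV C K) (t x : K) : Prop := ∃ (c : ℕ → K) (r : K), (∀ j, w (c j) ≤ 1) ∧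
  w r ≤ 1 ∧ x = ∑ j ∈ range p, t ^ j * c j ^ p + p * r

end defs

variable {C K : Type*} [NontriviallyNormedField C] [IsUltrametricDist C] [Field K] [Algebra C K]
  {p : ℕ} {w : NV C K} {t : K}

theorem Good.of_p {r : K} (hp : p.Prime) (hr : w r ≤ 1) : Good p w t (p * r) :=
  ⟨fun _ => 0, r, fun _ => by simp, hr, by simp [hp.ne_zero]⟩

theorem Good.zero (hp : p.Prime) : Good p w t 0 := by
  have := Good.of_p (w := w) (t := t) (r := 0) hp (by simp)
  simpa using this

theorem Good.add (hp : p.Prime) (ht : w t ≤ 1) {x y : K} (hx : Good p w t x) (hy : Good p w t y) :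
    Good p w t (x + y) := by
  obtain ⟨c, r, hc, hr, rfl⟩ := hx
  obtain ⟨c', r', hc', hr', rfl⟩ := hy
  choose s hs hs' using fun j => P025H992.add_pow_ring w hp (hc j) (hc' j)
  refine ⟨fun j => c j + c' j,
    r + r' - ∑ j ∈ range p, t ^ j * (c j * c' j * s j), fun j => NV.add_le (hc j) (hc' j), ?_, ?_⟩
  · refine NV.sub_le (NV.add_le hr hr') (NV.sum_le zero_le_one fun j _ => ?_)
    exact NV.mul_le_one (NV.pow_le_one' ht j)
      (NV.mul_le_one (NV.mul_le_one (hc j) (hc' j)) (hs j))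
  · have h1 : ∑ j ∈ range p, t ^ j * (c j + c' j) ^ p = ∑ j ∈ range p, t ^ j * c j ^ p +
        ∑ j ∈ range p, t ^ j * c' j ^ p + p * ∑ j ∈ range p, t ^ j * (c j * c' j * s j) := by
      rw [mul_sum, ← sum_add_distrib, ← sum_add_distrib]
      refine sum_congr rfl fun j _ => ?_
      rw [hs']
      ring
    rw [h1]
    ring

theorem Good.sum (hp : p.Prime) (ht : w t ≤ 1) {ι : Type*} (s : Finset ι) {f : ι → K}
    (h : ∀ i ∈ s, Good p w t (f i)) : Good p w t (∑ i ∈ s, f i) := by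
  classical
  induction s using Finset.induction_on with
  | empty => simpa using Good.zero hp
  | insert a s ha ih =>
    rw [Finset.sum_insert ha]
    exact (h a (Finset.mem_insert_self a s)).add hp ht
      (ih fun i hi => h i (Finset.mem_insert_of_mem hi))

theorem Good.term (hp : p.Prime) (ht : w t ≤ 1) (i : ℕ) {c : K} (hc : w c ≤ 1) :
    Good p w t (t ^ i * c ^ p) := by
  refine ⟨fun j => if j = i % p then t ^ (i / p) * c else 0, 0, fun j => ?_, by simp, ?_⟩
  · dsimp only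
    split_ifs
    · exact NV.mul_le_one (NV.pow_le_one' ht _) hc
    · simp
  · rw [mul_zero, add_zero, Finset.sum_eq_single (i % p)]
    · dsimp only
      rw [if_pos rfl, mul_pow, ← pow_mul, ← mul_assoc, ← pow_add, mul_comm (i / p) p,
        Nat.mod_add_div]
    · intro j _ hj
      dsimp only
      rw [if_neg hj, zero_pow hp.ne_zero, mul_zero]
    · intro h
      exact absurd (mem_range.mpr (Nat.mod_lt i hp.pos)) h

theorem Good.scale {γ : K} (hγ : w γ ≤ 1) {x : K} (hx : Good p w t x) :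
    Good p w t (γ ^ p * x) := by
  obtain ⟨c, r, hc, hr, rfl⟩ := hx
  refine ⟨fun j => γ * c j, γ ^ p * r, fun j => NV.mul_le_one hγ (hc j),
    NV.mul_le_one (NV.pow_le_one' hγ p) hr, ?_⟩
  rw [mul_add, mul_sum]
  congr 1
  · refine sum_congr rfl fun j _ => ?_
    rw [mul_pow]
    ring
  · ring

/-- multiplication by rational functions of norm at most one -/
theorem Good.ratio [IsAlgClosed C] (hp : p.Prime) (ht : w.OverG t) {P Q : C[X]} (hQ : Q ≠ 0)
    (hPQ : gp P ≤ gp Q) (j : ℕ) {c : K} (hc : w c ≤ 1) :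
    Good p w t (aeval t P / aeval t Q * (t ^ j * c ^ p)) := by
  have ht1 : w t ≤ 1 := ht.apply_T.le
  have hgQ : 0 < gp Q := lt_of_le_of_ne (gp_nonneg Q) (fun h => hQ (gp_eq_zero.mp h.symm))
  have hwQ : w (aeval t Q) = gp Q := ht Q
  have hQ0 : aeval t Q ≠ 0 := by
    intro h
    rw [h, map_zero] at hwQ
    exact hgQ.ne hwQ
  set R : C[X] := P * Q ^ (p - 1) with hR
  have hgpow : ∀ m : ℕ, gp (Q ^ m) = gp Q ^ m := by
    intro m
    induction m with
    | zero =>
      rw [pow_zero, pow_zero]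
      have := ht 1
      rw [map_one, map_one] at this
      exact this.symm
    | succ m ih => rw [pow_succ, pow_succ, gp_mul, ih]
  have hRle : ∀ i, ‖R.coeff i‖ ≤ gp Q ^ p := by
    intro i
    refine (norm_coeff_le R i).trans ?_
    rw [hR, gp_mul, hgpow]
    calc gp P * gp Q ^ (p - 1) ≤ gp Q * gp Q ^ (p - 1) :=
          mul_le_mul_of_nonneg_right hPQ (pow_nonneg hgQ.le _)
      _ = gp Q ^ p := by rw [← pow_succ', Nat.sub_add_cancel hp.one_le]
  choose α hα using fun i => IsAlgClosed.exists_pow_nat_eq (R.coeff i) hp.pos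
  have hαle : ∀ i, ‖α i‖ ≤ gp Q := by
    intro i
    have h1 : ‖α i‖ ^ p ≤ gp Q ^ p := by
      rw [← norm_pow, hα]
      exact hRle i
    exact le_of_pow_le_pow_left₀ hp.ne_zero hgQ.le h1
  have h1 : aeval t P / aeval t Q * (t ^ j * c ^ p) =
      ∑ i ∈ range (R.natDegree + 1), t ^ (i + j) * (algebraMap C K (α i) * c / aeval t Q) ^ p := by
    have h2 : aeval t P / aeval t Q = aeval t R / aeval t Q ^ p := by
      rw [div_eq_div_iff hQ0 (pow_ne_zero p hQ0), hR, map_mul, map_pow]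
      have : aeval t Q ^ p = aeval t Q ^ (p - 1) * aeval t Q := by
        rw [← pow_succ, Nat.sub_add_cancel hp.one_le]
      rw [this]
      ring
    rw [h2, aeval_eq_sum_range, sum_div, sum_mul]
    refine sum_congr rfl fun i _ => ?_
    rw [Algebra.smul_def, ← hα i, map_pow, div_pow, mul_pow, pow_add]
    ring
  rw [h1]
  refine Good.sum hp ht1 _ fun i _ => Good.term hp ht1 _ ?_
  rw [map_div₀, map_mul, w.ext', hwQ, div_le_one hgQ]
  exact (mul_le_of_le_one_right (norm_nonneg _) hc).trans (hαle i)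

/-- approximation by `C(t)`-combinations of an orthonormal basis -/
theorem exists_comb [FiniteDimensional C⟮t⟯ K] (hw : w.OverG t) {n : ℕ} {z : Fin n → K}
    (hz : ONB C t z) {ε : ℝ} (hε : 0 < ε) (hε1 : ε ≤ 1) {x : K} (hx : w x ≤ 1) :
    ∃ (Q : C[X]) (P : Fin n → C[X]), Q ≠ 0 ∧ (∀ k, gp (P k) ≤ gp Q) ∧
      w (x - ∑ k, aeval t (P k) / aeval t Q * z k) ≤ ε := by
  obtain ⟨y, hy, hy'⟩ := P025H458.exists_approx (ι := {v : NV C K // v.OverG t})
    (fun v => v.1.av) (fun v => v.1.na) (fun v => v.1.ext')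
    (fun v v' h => Subtype.ext (NV.ext h)) ⟨w, hw⟩ x hε
  have hy1 : ∀ v : NV C K, v.OverG t → v y ≤ 1 := by
    intro v hv
    by_cases h : (⟨v, hv⟩ : {v : NV C K // v.OverG t}) = ⟨w, hw⟩
    · obtain rfl : v = w := congrArg Subtype.val h
      have h1 : y = x + (y - x) := by ring
      rw [h1]
      exact NV.add_le hx (hy.le.trans hε1)
    · exact (hy' ⟨v, hv⟩ h).le.trans hε1
  obtain ⟨Q, P, hQ, hQP⟩ := hz.span y
  have hwQ : w (aeval t Q) = gp Q := hw Q
  have hgQ : 0 < gp Q := lt_of_le_of_ne (gp_nonneg Q) (fun h => hQ (gp_eq_zero.mp h.symm))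
  have hQ0 : aeval t Q ≠ 0 := by
    intro h
    rw [h, map_zero] at hwQ
    exact hgQ.ne hwQ
  refine ⟨Q, P, hQ, hz.on P (gp Q) fun v hv => ?_, ?_⟩
  · rw [← hQP, map_mul, hv Q]
    exact mul_le_of_le_one_right hgQ.le (hy1 v hv)
  · have h1 : ∑ k, aeval t (P k) / aeval t Q * z k = y := by
      have h2 : ∑ k, aeval t (P k) / aeval t Q * z k =
          (∑ k, aeval t (P k) * z k) / aeval t Q := by
        rw [sum_div]
        exact sum_congr rfl fun k _ => by ring
      rw [h2, ← hQP, mul_div_cancel_left₀ _ hQ0]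
    rw [h1, ← neg_sub, NV.map_neg']
    exact hy.le

/-- **generation**: every `x` with `w x ≤ 1` is `∑ t^j c_j^p + p r` -/
theorem good_of_pb [IsAlgClosed C] [FiniteDimensional C⟮t⟯ K] (hn : ∀ r : ℝ, 0 ≤ r → ∃ x : C, ‖x‖ = r)
    (hp : p.Prime) (hp0 : (p : C) ≠ 0) (hp1 : ‖(p : C)‖ < 1) [CharZero K] (hw : w.OverG t)
    (hpb : PB p w.av t) {n : ℕ} {z : Fin n → K} (hz : ONB C t z) {x : K} (hx : w x ≤ 1) :
    Good p w t x := by
  classical
  have ht1 : w t ≤ 1 := hw.apply_T.le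
  have hwp : w (p : K) = ‖(p : C)‖ := P025H992.nv_natCast w p
  have hpp : 0 < ‖(p : C)‖ := norm_pos_iff.mpr hp0
  have hpK : (p : K) ≠ 0 := by
    intro h
    rw [h, map_zero] at hwp
    exact hpp.ne hwp
  choose c hc hcs using fun k => hpb.gen (z k) (hz.le w hw k)
  obtain ⟨s, hs⟩ : ∃ s : Fin n → K, s = fun k => z k - ∑ j ∈ range p, t ^ j * c k j ^ p :=
    ⟨_, rfl⟩
  have hs1 : ∀ k, w (s k) < 1 := fun k => by rw [hs]; exact hcs k
  have hzs : ∀ k, z k = ∑ j ∈ range p, t ^ j * c k j ^ p + s k := fun k => by rw [hs]; ring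
  -- a uniform bound
  obtain ⟨ρ, hρ1, hρp, hρs⟩ : ∃ ρ : ℝ, ρ < 1 ∧ ‖(p : C)‖ ≤ ρ ∧ ∀ k, w (s k) ≤ ρ := by
    let F : Option (Fin n) → ℝ := fun o => o.elim ‖(p : C)‖ fun k => w (s k)
    obtain ⟨o, ho⟩ := Finite.exists_max F
    refine ⟨F o, ?_, ho none, fun k => ho (some k)⟩
    cases o with
    | none => exact hp1
    | some k => exact hs1 k
  have hρ0 : 0 < ρ := hpp.trans_le hρp
  obtain ⟨θ, hθ⟩ := hn ρ hρ0.le
  obtain ⟨γ, hγ⟩ := IsAlgClosed.exists_pow_nat_eq θ hp.pos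
  have hγn : ‖γ‖ ^ p = ρ := by rw [← norm_pow, hγ, hθ]
  have hγ1 : ‖γ‖ < 1 := by
    by_contra h
    push Not at h
    have := one_le_pow₀ (n := p) h
    rw [hγn] at this
    exact absurd this (not_le.mpr hρ1)
  have hγ0 : 0 < ‖γ‖ := by
    rcases (norm_nonneg γ).eq_or_lt with h | h
    · rw [← h, zero_pow hp.ne_zero] at hγn
      exact absurd hγn hρ0.ne
    · exact h
  have hγK : algebraMap C K γ ≠ 0 := (_root_.map_ne_zero _).2 (norm_pos_iff.mp hγ0)
  -- one step
  have hstep : ∀ x, w x ≤ 1 → ∃ g e, Good p w t g ∧ w e ≤ 1 ∧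
      x = g + algebraMap C K γ ^ p * e := by
    intro x hx
    obtain ⟨Q, P, hQ, hPQ, hxe⟩ := exists_comb hw hz hpp hp1.le hx
    set u := x - ∑ k, aeval t (P k) / aeval t Q * z k with hu
    have hr : ∀ k, w (aeval t (P k) / aeval t Q) ≤ 1 := by
      intro k
      rw [map_div₀, hw, hw]
      exact div_le_one_of_le₀ (hPQ k) (gp_nonneg Q)
    refine ⟨∑ k, ∑ j ∈ range p, aeval t (P k) / aeval t Q * (t ^ j * c k j ^ p),
      (∑ k, aeval t (P k) / aeval t Q * s k + u) / algebraMap C K γ ^ p, ?_, ?_, ?_⟩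
    · exact Good.sum hp ht1 _ fun k _ => Good.sum hp ht1 _ fun j _ =>
        Good.ratio hp hw hQ (hPQ k) j (hc k j)
    · rw [map_div₀, map_pow, w.ext', hγn]
      refine div_le_one_of_le₀ ?_ hρ0.le
      refine NV.add_le (NV.sum_le hρ0.le fun k _ => ?_) (hxe.trans hρp)
      rw [map_mul]
      exact (mul_le_of_le_one_left (w.av.nonneg _) (hr k)).trans (hρs k)
    · rw [mul_div_cancel₀ _ (pow_ne_zero p hγK), hu, ← add_assoc, ← sum_add_distrib]
      have h1 : ∀ k, ∑ j ∈ range p, aeval t (P k) / aeval t Q * (t ^ j * c k j ^ p) +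
          aeval t (P k) / aeval t Q * s k = aeval t (P k) / aeval t Q * z k := by
        intro k
        rw [hzs k, mul_add, mul_sum]
      rw [sum_congr rfl fun k _ => h1 k]
      ring
  -- iteration
  have hiter : ∀ m : ℕ, ∀ x, w x ≤ 1 → ∃ g e, Good p w t g ∧ w e ≤ 1 ∧
      x = g + (algebraMap C K γ ^ m) ^ p * e := by
    intro m
    induction m with
    | zero => exact fun x hx => ⟨0, x, Good.zero hp, hx, by simp⟩
    | succ m ih =>
      intro x hx
      obtain ⟨g, e, hg, he, rfl⟩ := ih x hx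
      obtain ⟨g', e', hg', he', rfl⟩ := hstep e he
      refine ⟨g + (algebraMap C K γ ^ m) ^ p * g', e', hg.add hp ht1 (hg'.scale ?_), he', ?_⟩
      · exact NV.pow_le_one' (by rw [w.ext']; exact hγ1.le) m
      · rw [pow_succ, mul_pow]
        ring
  obtain ⟨m, hm⟩ := exists_pow_lt_of_lt_one hpp hγ1
  obtain ⟨g, e, hg, he, rfl⟩ := hiter m x hx
  refine hg.add hp ht1 ?_
  have h1 : (algebraMap C K γ ^ m) ^ p * e = p * ((algebraMap C K γ ^ m) ^ p * e / p) := by
    field_simp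
  rw [h1]
  refine Good.of_p hp ?_
  rw [map_div₀, map_mul, map_pow, map_pow, w.ext', hwp]
  refine div_le_one_of_le₀ ?_ hpp.le
  calc (‖γ‖ ^ m) ^ p * w e ≤ (‖γ‖ ^ m) ^ p :=
        mul_le_of_le_one_right (pow_nonneg (pow_nonneg hγ0.le m) p) he
    _ ≤ ‖γ‖ ^ m := pow_le_of_le_one (pow_nonneg hγ0.le m) (pow_le_one₀ hγ0.le hγ1.le) hp.ne_zero
    _ ≤ ‖(p : C)‖ := hm.le

end P025H133
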