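import Vale.Agent.P025.R2.H133.Near0
import Vale.Agent.P025.R2.H359.PBasis
import Vale.Agent.P025.R2.H133.BoundedD
import Vale.Agent.P025.R2.H992.On

/-!
# G-S1 (blueprint (7.2)): if all Hodge-Tate forms vanish, classes are near `p`-th powers
-/

universe u

open Polynomial IntermediateField P025H373 P025H746 P025H458 P025H587 Vale.Agent.P019P
open P025H359 P025H992

set_option linter.unusedSectionVars false

namespace P025H133

/-- the cover `W = L(g^(1/p))` -/
theorem near_of_cover {C L W : Type*} [NontriviallyNormedField C] [IsUltrametricDist C]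
    [IsAlgClosed C] [CharZero C] (hC : Sph C) (hn : ∀ r : ℝ, 0 ≤ r → ∃ x : C, ‖x‖ = r) {p : ℕ}
    (hp : p.Prime) (hp1 : ‖(p : C)‖ < 1) [Field L] [Algebra C L] [Field W] [Algebra C W]
    [Algebra L W] [IsScalarTower C L W] {f : ℕ → L} (hf : IsSys C p f)
    (hθ : ∀ D : Derivation C L L, IsTheta p D f 0) {φ : W} (hφ : φ ^ p = algebraMap L W (f 1))
    (htop : L⟮φ⟯ = ⊤) (hgp : ∀ b : L, b ^ p ≠ f 1) {T : L} [FiniteDimensional C⟮T⟯ L]
    {w : NV C L} (hw : w.OverG T) :
    ∃ y : L, y ≠ 0 ∧ (w (f 1 / y ^ p - 1)) ^ (p - 1) ≤ ‖(p : C)‖ ^ p := by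
  have hp0 : (p : C) ≠ 0 := by exact_mod_cast hp.ne_zero
  have hcL : CharZero L := charZero_of_injective_algebraMap (algebraMap C L).injective
  obtain ⟨hfd, -, -⟩ := P025H992.kummer_galois hp hp0 hgp hφ htop
  have hT : Transcendental C T := hw.transc
  have hT' : Transcendental C (algebraMap L W T) := by
    rw [transcendental_algebraMap_iff (FaithfulSMul.algebraMap_injective L W)]
    exact hT
  have hfW : FiniteDimensional C⟮algebraMap L W T⟯ W := finite_adjoin_map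
  have hpos : ∀ w : NV C L, w.OverG T → 0 < Module.finrank (kC C)⟮w.red T⟯ (kap w) := by
    intro w hw
    have := hw.finite
    exact Module.finrank_pos
  rcases P025H992.near_or_far' hn hp hp0 hp1 (hf.ne 1) hgp hφ htop
    (sum_finrank_eq hC hn hT) (sum_finrank_eq hC hn hT') hpos hw with h | h
  · exact h
  · exfalso
    obtain ⟨y, β, b, hy, hβ, hβ1, hb, hfy, hb'⟩ := h
    obtain ⟨t, hpb, hwt, hft⟩ := exists_pb hp hp1 hw
    obtain ⟨n, z, hz⟩ := exists_on hwt.transc (sum_finrank_eq hC hn hwt.transc)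
    obtain ⟨D, hD⟩ := exists_der t hwt.transc
    exact no_alt' hn hp hp1 hwt hpb hz D hD (bounded_D hz hwt D hD) hf (hθ D) hy hβ hβ1 hb hfy hb'

/-- **G-S1** -/
theorem nearAll (C : Type u) [NontriviallyNormedField C] [IsUltrametricDist C] [IsAlgClosed C]
    [CharZero C] (hC : Sph C) (hn : ∀ r : ℝ, 0 ≤ r → ∃ x : C, ‖x‖ = r) {p : ℕ} (hp : p.Prime)
    (hp1 : ‖(p : C)‖ < 1) (L : Type u) [Field L] [Algebra C L] [CFF C L]
    (h0 : ∀ (D : Derivation C L L) (f : ℕ → L), IsSys C p f → IsTheta p D f 0)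
    (g : L) (hg : g ≠ 0) (hd : ∀ P : Plk C L, (p : ℤ) ∣ ord P g) (T : L) (w : NV C L)
    (hw : w.OverG T) : ∃ y : L, y ≠ 0 ∧ (w (g / y ^ p - 1)) ^ (p - 1) ≤ ‖(p : C)‖ ^ p := by
  have hp0 : (p : C) ≠ 0 := by exact_mod_cast hp.ne_zero
  by_cases hgp : ∃ b : L, b ^ p = g
  · obtain ⟨b, rfl⟩ := hgp
    have hb : b ≠ 0 := by
      rintro rfl
      rw [zero_pow hp.ne_zero] at hg
      exact hg rfl
    refine ⟨b, hb, ?_⟩
    rw [div_self (pow_ne_zero p hb), sub_self, map_zero,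
      zero_pow (Nat.sub_ne_zero_of_lt hp.one_lt)]
    positivity
  push Not at hgp
  have hfin : FiniteDimensional C⟮T⟯ L := CFld_finite hw.transc
  obtain ⟨f, hf, hf1⟩ := P025H16.exists_sys hp0 hg hd
  subst hf1
  have hirr : Irreducible (X ^ p - Polynomial.C (f 1) : L[X]) :=
    X_pow_sub_C_irreducible_of_prime hp hgp
  have hfact := Fact.mk hirr
  have hφ : (AdjoinRoot.root (X ^ p - Polynomial.C (f 1) : L[X])) ^ p =
      algebraMap L (AdjoinRoot (X ^ p - Polynomial.C (f 1) : L[X])) (f 1) := by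
    have h1 := AdjoinRoot.eval₂_root (X ^ p - Polynomial.C (f 1) : L[X])
    rw [eval₂_sub, eval₂_pow, eval₂_X, eval₂_C, sub_eq_zero] at h1
    exact h1
  exact near_of_cover hC hn hp hp1 hf (fun D => h0 D f hf) hφ
    (IntermediateField.adjoin_root_eq_top _) hgp hw

end P025H133
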