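import Vale.Agent.P025.R2.H746.Stab
import Vale.Agent.P025.R2.H992.Pair3
import Vale.Agent.P025.R2.H16.Sys
import Vale.Agent.P025.R2.H133.Gen
import Vale.Agent.P025.R2.H133.Contr
import Vale.Agent.P025.R2.H133.Der

/-!
# G-S1 (blueprint (7.2)): the contradiction for systems with vanishing Hodge-Tate form
-/

universe u

open Polynomial IntermediateField P025H373 P025H746 P025H458 P025H587 Vale.Agent.P019P

set_option linter.unusedSectionVars false

namespace P025H133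

section Contr

variable {C K : Type*} [NontriviallyNormedField C] [IsUltrametricDist C] [IsAlgClosed C]
  [CharZero C] [Field K] [Algebra C K] {p : ℕ} {w : NV C K} {t : K}

/-- the divided powers of `d/dt` are bounded by one -/
theorem contr_of_pb [FiniteDimensional C⟮t⟯ K] (hn : ∀ r : ℝ, 0 ≤ r → ∃ x : C, ‖x‖ = r)
    (hp : p.Prime) (hp1 : ‖(p : C)‖ < 1) [CharZero K] (hw : w.OverG t)
    (hpb : PB p w.av t) {n : ℕ} {z : Fin n → K} (hz : ONB C t z) (D : Derivation C K K)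
    (hD : D t = 1) (hM : ∃ M : ℝ, ∀ x, w (D x) ≤ M * w x) :
    Contr w.av (D.restrictScalars ℤ) := by
  have hp0 : (p : C) ≠ 0 := by exact_mod_cast hp.ne_zero
  have hwp : w (p : K) < 1 := by rw [P025H992.nv_natCast]; exact hp1
  refine contr_of w.na hp hwp hw.apply_T.le hD ?_ hM ?_
  · intro x hx
    obtain ⟨c, hc⟩ := exists_norm_eq hw x
    refine ⟨algebraMap C K c, ?_, ?_, ?_⟩
    · intro h
      rw [_root_.map_eq_zero] at h
      rw [h, norm_zero] at hc
      exact hx (w.av.eq_zero.mp hc.symm)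
    · change D (algebraMap C K c) = 0
      exact D.map_algebraMap c
    · rw [w.ext', hc]
  · intro x hx
    exact good_of_pb hn hp hp0 hp1 hw hpb hz hx

/-- elements of a system are equal up to `p`-th powers -/
theorem sys_eq {f : ℕ → K} (hf : IsSys C p f) : ∀ m, 1 ≤ m → ∃ H : K, f m = f 1 * H ^ p := by
  intro m hm
  induction m, hm using Nat.le_induction with
  | base => exact ⟨1, by simp⟩
  | succ m hm ih =>
    obtain ⟨H, hH⟩ := ih
    obtain ⟨h, hh⟩ := hf.succ m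
    refine ⟨H * h ^ p ^ (m - 1), ?_⟩
    rw [hh, hH, mul_pow, ← pow_mul, ← pow_succ, Nat.sub_add_cancel hm]
    ring

theorem sys_small (hp1 : ‖(p : C)‖ < 1) {D : Derivation C K K} {f : ℕ → K} (hf : IsSys C p f)
    (hθ : IsTheta p D f 0) (w : NV C K) (hp0 : p ≠ 0) (ε : ℝ) (hε : 0 < ε) :
    ∃ h : K, h ≠ 0 ∧ w (D (f 1 * h ^ p)) ≤ ε * w (f 1 * h ^ p) := by
  obtain ⟨A, hA⟩ := hθ w.av ⟨w.na, w.ext'⟩
  obtain ⟨m, hm⟩ : ∃ m : ℕ, A * ‖(p : C)‖ ^ (m + 1) ≤ ε := by
    have h1 : Filter.Tendsto (fun m : ℕ => A * ‖(p : C)‖ ^ (m + 1)) Filter.atTop (nhds 0) := by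
      have := ((tendsto_pow_atTop_nhds_zero_of_lt_one (norm_nonneg (p : C)) hp1).comp
        (Filter.tendsto_add_atTop_nat 1)).const_mul A
      simpa using this
    obtain ⟨m, hm⟩ := (h1.eventually (gt_mem_nhds hε)).exists
    exact ⟨m, hm.le⟩
  obtain ⟨H, hH⟩ := sys_eq hf (m + 1) (Nat.le_add_left 1 m)
  have hne := hf.ne (m + 1)
  refine ⟨H, ?_, ?_⟩
  · rintro rfl
    rw [zero_pow hp0, mul_zero] at hH
    exact hne hH
  · rw [← hH]
    have h2 := hA (m + 1)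
    rw [sub_zero, map_div₀, div_le_iff₀ (w.av.pos hne)] at h2
    exact h2.trans (mul_le_mul_of_nonneg_right hm (w.av.nonneg _))

/-- **(7.2), the contradiction** -/
theorem no_alt' [FiniteDimensional C⟮t⟯ K] (hn : ∀ r : ℝ, 0 ≤ r → ∃ x : C, ‖x‖ = r)
    (hp : p.Prime) (hp1 : ‖(p : C)‖ < 1) (hw : w.OverG t)
    (hpb : PB p w.av t) {n : ℕ} {z : Fin n → K} (hz : ONB C t z) (D : Derivation C K K)
    (hD : D t = 1) (hM : ∃ M : ℝ, ∀ x, w (D x) ≤ M * w x) {f : ℕ → K} (hf : IsSys C p f)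
    (hθ : IsTheta p D f 0) {y : K} {β : C} {b : K} (hy : y ≠ 0)
    (hβ : ‖(p : C)‖ ^ p < ‖β‖ ^ (p - 1)) (hβ1 : ‖β‖ ≤ 1) (hb : w b = 1)
    (hfy : f 1 / y ^ p - 1 = algebraMap C K β * b) (hb' : ∀ α : kap w, α ^ p ≠ w.red b) :
    False := by
  have hcK : CharZero K := charZero_of_injective_algebraMap (algebraMap C K).injective
  have hwp : w (p : K) = ‖(p : C)‖ := P025H992.nv_natCast w p
  refine no_alt w.na (contr_of_pb hn hp hp1 hw hpb hz D hD hM) hp (by rw [hwp]; exact hp1)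
    hw.apply_T.le hD hpb (hf.ne 1) (fun ε hε => sys_small hp1 hf hθ w hp.ne_zero ε hε) hy
    (D.map_algebraMap β) (by rw [w.ext']; exact hβ1) (by rw [hwp, w.ext']; exact hβ) hb hfy ?_ ?_
  · intro _
    obtain ⟨δ, hδ⟩ := IsAlgClosed.exists_pow_nat_eq (-β⁻¹) hp.pos
    refine ⟨algebraMap C K δ, ?_⟩
    rw [← map_pow, hδ, map_neg, map_inv₀]
  · intro a ha hlt
    refine hb' (w.red a) ?_
    have h1 : w (a ^ p) ≤ 1 := NV.pow_le_one' ha p
    have h2 := NV.red_of_lt hlt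
    rw [NV.red_sub hb.le h1, NV.red_pow ha, sub_eq_zero] at h2
    exact h2.symm

end Contr

end P025H133
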