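import Mathlib

/-!
# G-QPLIN (blueprint 9.3)

For `u` algebraic over `ℚ_p`, `l ≥ 1` and a finite set `S ⊂ ℤ_p` there are distinct
`α_i ∈ ℤ_p \ S`, `n_i ∈ ℤ_p` with `∑ n_i = 0` and
`∑ n_i / (x - α_i) = c * m(x)^(l-1) / ∏ (x - α_i)`, `m` the minimal polynomial of `u`, `c ≠ 0`.
-/

open Polynomial

namespace P025H133

section

variable {F K : Type*} [Field F] [Field K] [Algebra F K]

/-- Partial fractions in a field extension. -/
theorem partial_fractions {ι : Type*} [DecidableEq ι] (s : Finset ι) (α : ι → F)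
    (hα : Set.InjOn α s) (P : F[X]) (hP : P.degree < s.card) (x : K)
    (hx : ∀ i ∈ s, x ≠ algebraMap F K (α i)) :
    ∑ i ∈ s, algebraMap F K (P.eval (α i) / ∏ j ∈ s.erase i, (α i - α j)) /
      (x - algebraMap F K (α i)) = aeval x P / ∏ i ∈ s, (x - algebraMap F K (α i)) := by
  have hinj : Set.InjOn (fun i => algebraMap F K (α i)) s := fun i hi j hj h =>
    hα hi hj ((algebraMap F K).injective h)
  have h1 := Lagrange.eq_interpolate (f := P.map (algebraMap F K)) hinj (by rwa [degree_map])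
  have h2 := congrArg (eval x) h1
  rw [Lagrange.eval_interpolate_not_at_node _ (fun i hi => hx i hi), Lagrange.eval_nodal,
    eval_map_algebraMap] at h2
  have h3 : ∏ i ∈ s, (x - algebraMap F K (α i)) ≠ 0 :=
    Finset.prod_ne_zero_iff.mpr fun i hi => sub_ne_zero.mpr (hx i hi)
  rw [h2, mul_div_cancel_left₀ _ h3]
  refine Finset.sum_congr rfl fun i hi => ?_
  rw [Lagrange.nodalWeight, eval_map_algebraMap, aeval_algebraMap_apply_eq_algebraMap_eval,
    map_div₀, map_prod]
  simp only [map_sub, Finset.prod_inv_distrib]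
  field_simp

end

variable {p : ℕ} [Fact p.Prime]

theorem exists_res {C : Type*} [Field C] [Algebra ℚ_[p] C] (u : C)
    (S : Set ℤ_[p]) (hS : S.Finite) (l : ℕ) :
    ∃ (N : ℕ) (α n : Fin N → ℤ_[p]) (c : ℚ_[p]), Function.Injective α ∧ (∀ i, α i ∉ S) ∧
      (∀ i, algebraMap ℚ_[p] C (α i) ≠ u) ∧ ∑ i, n i = 0 ∧ c ≠ 0 ∧
      ∀ (K : Type*) [Field K] [Algebra ℚ_[p] K] (x : K),
        (∀ i, x ≠ algebraMap ℚ_[p] K (α i)) →
        ∑ i, algebraMap ℚ_[p] K (n i) / (x - algebraMap ℚ_[p] K (α i)) =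
          algebraMap ℚ_[p] K c * aeval x (minpoly ℚ_[p] u) ^ l /
            ∏ i, (x - algebraMap ℚ_[p] K (α i)) := by
  classical
  -- the nodes
  have hT : (S ∪ {a : ℤ_[p] | algebraMap ℚ_[p] C (a : ℚ_[p]) = u}).Finite := by
    refine hS.union (Set.Subsingleton.finite fun a ha b hb => ?_)
    exact Subtype.ext ((algebraMap ℚ_[p] C).injective (ha.trans hb.symm))
  have hinf : (S ∪ {a : ℤ_[p] | algebraMap ℚ_[p] C (a : ℚ_[p]) = u})ᶜ.Infinite := by
    exact hT.infinite_compl
  set P : ℚ_[p][X] := minpoly ℚ_[p] u ^ l with hP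
  set N := P.natDegree + 2 with hN
  let e := hinf.natEmbedding
  let α : Fin N → ℤ_[p] := fun i => (e (i : ℕ) : ℤ_[p])
  have hα : Function.Injective α := fun i j h => Fin.ext (e.injective (Subtype.ext h))
  let β : Fin N → ℚ_[p] := fun i => (α i : ℚ_[p])
  have hβ : Function.Injective β := fun i j h => hα (Subtype.ext h)
  have hmem : ∀ i, α i ∉ S ∧ algebraMap ℚ_[p] C (α i) ≠ u := by
    intro i
    have := (e (i : ℕ)).2
    simp only [Set.mem_compl_iff, Set.mem_union, not_or] at this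
    exact this
  have hdeg : P.degree < ((Finset.univ : Finset (Fin N)).card : WithBot ℕ) := by
    rw [Finset.card_univ, Fintype.card_fin]
    refine lt_of_le_of_lt degree_le_natDegree ?_
    exact_mod_cast (by omega : P.natDegree < N)
  let q : Fin N → ℚ_[p] := fun i => P.eval (β i) / ∏ j ∈ Finset.univ.erase i, (β i - β j)
  have hq : ∑ i, q i = 0 := by
    have h1 := Lagrange.coeff_eq_sum (s := (Finset.univ : Finset (Fin N))) hβ.injOn hdeg
    rw [Finset.card_univ, Fintype.card_fin] at h1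
    rw [← h1]
    exact coeff_eq_zero_of_natDegree_lt (by omega)
  -- a common denominator
  obtain ⟨b, hb⟩ := IsLocalization.exist_integer_multiples_of_finset
    (M := nonZeroDivisors ℤ_[p]) (S := ℚ_[p]) (Finset.univ.image q)
  have hb0 : (b : ℤ_[p]) ≠ 0 := nonZeroDivisors.ne_zero b.2
  choose! r hr using hb
  let n : Fin N → ℤ_[p] := fun i => r (q i)
  have hn : ∀ i, (n i : ℚ_[p]) = (b : ℤ_[p]) * q i := by
    intro i
    have := hr (q i) (Finset.mem_image_of_mem _ (Finset.mem_univ i))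
    rw [Algebra.smul_def] at this
    exact this
  refine ⟨N, α, n, (b : ℤ_[p]), hα, fun i => (hmem i).1, fun i => (hmem i).2, ?_, ?_, ?_⟩
  · have : ((∑ i, n i : ℤ_[p]) : ℚ_[p]) = 0 := by
      rw [PadicInt.coe_sum]
      simp only [hn, ← Finset.mul_sum, hq, mul_zero]
    exact Subtype.ext this
  · exact fun h => hb0 (Subtype.ext h)
  · intro K _ _ x hx
    have h1 := partial_fractions (K := K) Finset.univ β hβ.injOn P hdeg x (fun i _ => hx i)
    rw [mul_div_assoc, ← map_pow, ← hP, ← h1, Finset.mul_sum]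
    refine Finset.sum_congr rfl fun i _ => ?_
    rw [hn, map_mul, mul_div_assoc]

/-- The minimal polynomial has a simple root at `u`. -/
theorem minpoly_simple {C : Type*} [Field C] [Algebra ℚ_[p] C] (u : C) (hu : IsIntegral ℚ_[p] u) :
    ∃ g : C[X], (minpoly ℚ_[p] u).map (algebraMap ℚ_[p] C) = (X - Polynomial.C u) * g ∧
      g.eval u ≠ 0 := by
  have h0 : ((minpoly ℚ_[p] u).map (algebraMap ℚ_[p] C)).IsRoot u := by
    rw [IsRoot, eval_map_algebraMap, minpoly.aeval]
  obtain ⟨g, hg⟩ := dvd_iff_isRoot.mpr h0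
  refine ⟨g, hg, fun h1 => ?_⟩
  have hsep : ((minpoly ℚ_[p] u).map (algebraMap ℚ_[p] C)).Separable :=
    (minpoly.irreducible hu).separable.map
  have h2 := hsep.eval₂_derivative_ne_zero (RingHom.id C) (x := u) (by
    rw [eval₂_id]; exact h0)
  rw [hg, derivative_mul, eval₂_id] at h2
  simp [h1] at h2

end P025H133
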