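import Mathlib

/-!
# Taylor expansions along a derivation (for G-S1)

`Tv D v x = ∑ (D + v)^n x / n! * z^n`.  `Tv D v x * Tv D w y = Tv D (v + w) (x * y)`.
-/

open PowerSeries

set_option linter.unusedSectionVars false

namespace P025H133

variable {K : Type*} [Field K] [CharZero K] (D : Derivation ℤ K K)

/-- `D + v` -/
def nab (v x : K) : K := D x + v * x

/-- Taylor expansion of `x` for the operator `D + v`. -/
noncomputable def Tv (v x : K) : K⟦X⟧ := PowerSeries.mk fun n => (nab D v)^[n] x / (n.factorial : K)

@[simp] theorem coeff_Tv (v x : K) (n : ℕ) :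
    coeff n (Tv D v x) = (nab D v)^[n] x / (n.factorial : K) := coeff_mk _ _

@[simp] theorem constantCoeff_Tv (v x : K) : constantCoeff (Tv D v x) = x := by
  rw [← coeff_zero_eq_constantCoeff_apply]
  simp

theorem nab_add (v x y : K) : nab D v (x + y) = nab D v x + nab D v y := by
  simp only [nab, map_add]; ring

theorem nab_iter_add (v x y : K) (n : ℕ) :
    (nab D v)^[n] (x + y) = (nab D v)^[n] x + (nab D v)^[n] y := by
  induction n generalizing x y with
  | zero => simp
  | succ n ih => simp only [Function.iterate_succ, Function.comp_apply, nab_add, ih]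

theorem Tv_add (v x y : K) : Tv D v (x + y) = Tv D v x + Tv D v y := by
  ext n
  rw [map_add, coeff_Tv, coeff_Tv, coeff_Tv, nab_iter_add, add_div]

theorem derivative_Tv (v x : K) : d⁄dX K (Tv D v x) = Tv D v (nab D v x) := by
  ext n
  rw [coeff_derivative, coeff_Tv, coeff_Tv, Function.iterate_succ, Function.comp_apply,
    Nat.factorial_succ, Nat.cast_mul, Nat.cast_add, Nat.cast_one]
  have h1 : (n : K) + 1 ≠ 0 := by exact_mod_cast Nat.succ_ne_zero n
  have h2 : (n.factorial : K) ≠ 0 := by exact_mod_cast Nat.factorial_ne_zero n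
  field_simp

theorem nab_mul (v w x y : K) :
    nab D (v + w) (x * y) = nab D v x * y + x * nab D w y := by
  simp only [nab, Derivation.leibniz, smul_eq_mul]; ring

theorem Tv_mul (v w x y : K) : Tv D v x * Tv D w y = Tv D (v + w) (x * y) := by
  ext n
  induction n generalizing x y with
  | zero =>
    rw [coeff_zero_eq_constantCoeff_apply, coeff_zero_eq_constantCoeff_apply, map_mul,
      constantCoeff_Tv, constantCoeff_Tv, constantCoeff_Tv]
  | succ n ih =>
    have h1 : (n : K) + 1 ≠ 0 := by exact_mod_cast Nat.succ_ne_zero n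
    refine mul_right_cancel₀ h1 ?_
    rw [← coeff_derivative, ← coeff_derivative, derivative_Tv, nab_mul, Tv_add, map_add,
      Derivation.leibniz, map_add, smul_eq_mul, smul_eq_mul, derivative_Tv, derivative_Tv,
      ← ih, ← ih]
    rw [mul_comm (Tv D w y)]
    ring

theorem Tv_pow (v : K) (x : K) (n : ℕ) : Tv D v x ^ n = Tv D (n * v) (x ^ n) := by
  induction n with
  | zero =>
    rw [pow_zero, pow_zero, Nat.cast_zero, zero_mul]
    ext n
    rw [coeff_Tv, coeff_one]
    have : ∀ m, (nab D 0)^[m + 1] (1 : K) = 0 := by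
      intro m
      induction m with
      | zero => simp [nab]
      | succ m ih => rw [Function.iterate_succ_apply', ih]; simp [nab]
    rcases n with _ | n
    · simp
    · rw [this]; simp
  | succ n ih =>
    rw [pow_succ, ih, Tv_mul, pow_succ]
    congr 1
    push_cast; ring

theorem Tv_const {v x : K} (h : nab D v x = 0) : Tv D v x = C x := by
  ext n
  rw [coeff_Tv, coeff_C]
  rcases n with _ | n
  · simp
  · rw [Function.iterate_succ_apply, h, if_neg (Nat.succ_ne_zero n)]
    have : ∀ m, (nab D v)^[m] (0 : K) = 0 := by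
      intro m
      induction m with
      | zero => rfl
      | succ m ih => rw [Function.iterate_succ_apply', ih]; simp [nab]
    rw [this, zero_div]

/-- `Tv (D u / u) 1 = T(u) / u` -/
theorem Tv_logDer {u : K} (hu : u ≠ 0) : Tv D (D u / u) 1 = C u⁻¹ * Tv D 0 u := by
  have h1 : nab D (D u / u) u⁻¹ = 0 := by
    have h2 : D (u * u⁻¹) = 0 := by rw [mul_inv_cancel₀ hu]; simp
    rw [Derivation.leibniz, smul_eq_mul, smul_eq_mul] at h2
    rw [nab]
    field_simp
    field_simp at h2
    linear_combination h2
  rw [← Tv_const D h1, Tv_mul, inv_mul_cancel₀ hu, add_zero]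

theorem nab_zero : nab D 0 = D := by
  funext x; simp [nab]

end P025H133
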